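import Vale.Agent.H88.Quotient

/-!
# Modular counting of factorizations with star-free components

For star-free languages `K`, `K'` and a modulus `m ≥ 1`, the language of all words `w` whose
number of factorizations `w = x ++ y` with `x ∈ K` and `y ∈ K'` is congruent to `c` modulo `m`
has generalized star height at most one.
-/

namespace Vale.Agent.H88

open Language

universe u

variable {α : Type u}

open Classical in
/-- The number of positions `i ≤ |w|` such that the initial segment of `w` of length `i` lies in `K` and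
the remaining suffix lies in `K'`. -/
noncomputable def splitCount (K K' : Language α) (w : List α) : ℕ :=
  ∑ i ∈ Finset.range (w.length + 1), if w.take i ∈ K ∧ w.drop i ∈ K' then 1 else 0

open Classical in
theorem splitCount_append (K K' : Language α) (u t : List α) :
    splitCount K K' (u ++ t) =
      (∑ i ∈ Finset.range u.length, if u.take i ∈ K ∧ u.drop i ++ t ∈ K' then 1 else 0) +
        splitCount (K.leftQuotient u) K' t := by
  unfold splitCount
  have hlen : (u ++ t).length + 1 = u.length + (t.length + 1) := by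
    rw [List.length_append]
    omega
  rw [hlen, Finset.sum_range_add]
  congr 1
  · apply Finset.sum_congr rfl
    intro i hi
    have hi' : i < u.length := Finset.mem_range.1 hi
    rw [List.take_append_of_le_length hi'.le, List.drop_append_of_le_length hi'.le]
  · apply Finset.sum_congr rfl
    intro i _
    have h1 : (u ++ t).take (u.length + i) = u ++ t.take i := by
      simp [List.take_append]
    have h2 : (u ++ t).drop (u.length + i) = t.drop i := by
      simp [List.drop_append]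
    rw [h1, h2]
    rfl

theorem splitCount_eq_zero_of_notMem {K K' : Language α} {w : List α} (h : w ∉ K * K') :
    splitCount K K' w = 0 := by
  classical
  unfold splitCount
  apply Finset.sum_eq_zero
  intro i _
  rw [if_neg]
  rintro ⟨h1, h2⟩
  exact h (by rw [Language.mem_mul]; exact ⟨_, h1, _, h2, List.take_append_drop i w⟩)

/-- The words `w` with `f w ≡ c` modulo `m`. -/
def modLang (f : List α → ℕ) (m c : ℕ) : Language α := {w | f w ≡ c [MOD m]}

theorem mem_modLang {f : List α → ℕ} {m c : ℕ} {w : List α} :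
    w ∈ modLang f m c ↔ f w ≡ c [MOD m] := Iff.rfl

section core

/-- Nonempty words lying in both stabilisers. -/
def coreD (Q Q' : Language α) : Language α := Q ⊓ Q' ⊓ (1 : Language α)ᶜ

/-- The words of `coreD` that are not a product of two words of `coreD`. -/
def coreB (Q Q' : Language α) : Language α := coreD Q Q' ⊓ (coreD Q Q' * coreD Q Q')ᶜ

/-- The words of `P` without a factorization into a word of `P` and a nonempty word of `Q'`. -/
def coreX (P Q' : Language α) : Language α := P ⊓ (P * (Q' ⊓ (1 : Language α)ᶜ))ᶜ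

/-- The words of `P'` without a factorization into a nonempty word of `Q` and a word of `P'`. -/
def coreY (P' Q : Language α) : Language α := P' ⊓ ((Q ⊓ (1 : Language α)ᶜ) * P')ᶜ

variable {P Q P' Q' : Language α}

theorem mem_coreD {x : List α} : x ∈ coreD Q Q' ↔ (x ∈ Q ∧ x ∈ Q') ∧ x ≠ [] := Iff.rfl

theorem mem_coreB {x : List α} :
    x ∈ coreB Q Q' ↔ x ∈ coreD Q Q' ∧ x ∉ coreD Q Q' * coreD Q Q' := Iff.rfl

theorem mem_coreX {x : List α} :
    x ∈ coreX P Q' ↔ x ∈ P ∧ x ∉ P * (Q' ⊓ (1 : Language α)ᶜ) := Iff.rfl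

theorem mem_coreY {x : List α} :
    x ∈ coreY P' Q ↔ x ∈ P' ∧ x ∉ (Q ⊓ (1 : Language α)ᶜ) * P' := Iff.rfl

theorem mem_inf_one_compl {L : Language α} {x : List α} :
    x ∈ L ⊓ (1 : Language α)ᶜ ↔ x ∈ L ∧ x ≠ [] := Iff.rfl

theorem nil_mem_Q (hQ : ∀ u ∈ P, ∀ x, u ++ x ∈ P ↔ x ∈ Q) {u : List α} (hu : u ∈ P) :
    [] ∈ Q := (hQ u hu []).1 (by rw [List.append_nil]; exact hu)

theorem Q_unitary (hQ : ∀ u ∈ P, ∀ x, u ++ x ∈ P ↔ x ∈ Q) {u : List α} (hu : u ∈ P)
    {r : List α} (hr : r ∈ Q) (x : List α) : r ++ x ∈ Q ↔ x ∈ Q := by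
  rw [← hQ u hu (r ++ x), ← List.append_assoc, hQ (u ++ r) ((hQ u hu r).2 hr) x]

theorem Q'_unitary (hQ' : ∀ v ∈ P', ∀ x, x ++ v ∈ P' ↔ x ∈ Q') {v : List α} (hv : v ∈ P')
    {r : List α} (hr : r ∈ Q') (x : List α) : x ++ r ∈ Q' ↔ x ∈ Q' := by
  rw [← hQ' v hv (x ++ r), List.append_assoc, hQ' (r ++ v) ((hQ' v hv r).2 hr) x]

theorem take_ne_nil {x : List α} {i : ℕ} (hi0 : i ≠ 0) (hx : x ≠ []) : x.take i ≠ [] := by
  intro h
  rw [List.take_eq_nil_iff] at h
  rcases h with h | h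
  · exact hi0 h
  · exact hx h

theorem drop_ne_nil {x : List α} {i : ℕ} (hi : i < x.length) : x.drop i ≠ [] := by
  intro h
  rw [List.drop_eq_nil_iff] at h
  omega

theorem splitCount_B_append (hQ : ∀ u ∈ P, ∀ x, u ++ x ∈ P ↔ x ∈ Q)
    (hQ' : ∀ v ∈ P', ∀ x, x ++ v ∈ P' ↔ x ∈ Q') {u : List α} (hu : u ∈ P) {b t : List α}
    (hb : b ∈ coreB Q Q') (ht : t ∈ P') :
    b ++ t ∈ P' ∧ splitCount Q P' (b ++ t) = splitCount Q P' t + 1 := by
  classical
  obtain ⟨hbD, hbDD⟩ := mem_coreB.1 hb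
  obtain ⟨⟨hbQ, hbQ'⟩, hbne⟩ := mem_coreD.1 hbD
  have hbt : b ++ t ∈ P' := (hQ' t ht b).2 hbQ'
  refine ⟨hbt, ?_⟩
  rw [splitCount_append]
  have hlq : Q.leftQuotient b = Q := by
    ext x
    exact Q_unitary hQ hu hbQ x
  rw [hlq, add_comm]
  congr 1
  rw [Finset.sum_eq_single 0]
  · rw [if_pos]
    exact ⟨nil_mem_Q hQ hu, hbt⟩
  · intro i hi hi0
    rw [if_neg]
    rintro ⟨h1, h2⟩
    have hi' := Finset.mem_range.1 hi
    have hd : b.drop i ∈ Q' := (hQ' t ht _).1 h2
    have hsplit : b.take i ++ b.drop i = b := List.take_append_drop i b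
    have hdQ : b.drop i ∈ Q := (Q_unitary hQ hu h1 _).1 (by rw [hsplit]; exact hbQ)
    have htQ' : b.take i ∈ Q' := (Q'_unitary hQ' ht hd _).1 (by rw [hsplit]; exact hbQ')
    apply hbDD
    rw [Language.mem_mul]
    exact ⟨b.take i, mem_coreD.2 ⟨⟨h1, htQ'⟩, take_ne_nil hi0 hbne⟩, b.drop i,
      mem_coreD.2 ⟨⟨hdQ, hd⟩, drop_ne_nil hi'⟩, hsplit⟩
  · intro h
    exfalso
    apply h
    rw [Finset.mem_range]
    exact List.length_pos_of_ne_nil hbne

theorem splitCount_Y (hQ : ∀ u ∈ P, ∀ x, u ++ x ∈ P ↔ x ∈ Q) {u : List α} (hu : u ∈ P)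
    {y : List α} (hy : y ∈ coreY P' Q) : splitCount Q P' y = 1 := by
  classical
  obtain ⟨hyP', hyn⟩ := mem_coreY.1 hy
  unfold splitCount
  rw [Finset.sum_eq_single 0]
  · rw [if_pos]
    exact ⟨nil_mem_Q hQ hu, hyP'⟩
  · intro i hi hi0
    rw [if_neg]
    rintro ⟨h1, h2⟩
    apply hyn
    rw [Language.mem_mul]
    have hyne : y ≠ [] := by
      intro h
      subst h
      have := Finset.mem_range.1 hi
      simp at this
      omega
    exact ⟨y.take i, mem_inf_one_compl.2 ⟨h1, take_ne_nil hi0 hyne⟩, y.drop i, h2,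
      List.take_append_drop i y⟩
  · intro h
    exact absurd (Finset.mem_range.2 (Nat.succ_pos _)) h

theorem splitCount_pow_mul (hQ : ∀ u ∈ P, ∀ x, u ++ x ∈ P ↔ x ∈ Q)
    (hQ' : ∀ v ∈ P', ∀ x, x ++ v ∈ P' ↔ x ∈ Q') {u : List α} (hu : u ∈ P) :
    ∀ (j : ℕ) (t : List α), t ∈ coreB Q Q' ^ j * coreY P' Q →
      t ∈ P' ∧ splitCount Q P' t = j + 1
  | 0, t, ht => by
    rw [pow_zero, one_mul] at ht
    exact ⟨(mem_coreY.1 ht).1, splitCount_Y hQ hu ht⟩
  | j + 1, t, ht => by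
    rw [pow_succ', mul_assoc, Language.mem_mul] at ht
    obtain ⟨b, hb, t', ht', rfl⟩ := ht
    obtain ⟨h1, h2⟩ := splitCount_pow_mul hQ hQ' hu j t' ht'
    obtain ⟨h3, h4⟩ := splitCount_B_append hQ hQ' hu hb h1
    exact ⟨h3, by rw [h4, h2]⟩

theorem coreD_le_pow (Q Q' : Language α) : ∀ (n : ℕ) (q : List α), q.length ≤ n →
    q ∈ coreD Q Q' → ∃ j, q ∈ coreB Q Q' ^ (j + 1)
  | 0, q, hn, hq => by
    exfalso
    exact (mem_coreD.1 hq).2 (List.length_eq_zero_iff.1 (Nat.le_zero.1 hn))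
  | n + 1, q, hn, hq => by
    by_cases hDD : q ∈ coreD Q Q' * coreD Q Q'
    · rw [Language.mem_mul] at hDD
      obtain ⟨v₁, hv₁, v₂, hv₂, rfl⟩ := hDD
      have l1 : 0 < v₁.length := List.length_pos_of_ne_nil (mem_coreD.1 hv₁).2
      have l2 : 0 < v₂.length := List.length_pos_of_ne_nil (mem_coreD.1 hv₂).2
      rw [List.length_append] at hn
      obtain ⟨j₁, h1⟩ := coreD_le_pow Q Q' n v₁ (by omega) hv₁
      obtain ⟨j₂, h2⟩ := coreD_le_pow Q Q' n v₂ (by omega) hv₂
      refine ⟨j₁ + 1 + j₂, ?_⟩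
      have e : j₁ + 1 + j₂ + 1 = (j₁ + 1) + (j₂ + 1) := by omega
      rw [e, pow_add]
      exact Language.append_mem_mul h1 h2
    · exact ⟨0, by rw [zero_add, pow_one]; exact mem_coreB.2 ⟨hq, hDD⟩⟩

theorem exists_pow_mul (hQ' : ∀ v ∈ P', ∀ x, x ++ v ∈ P' ↔ x ∈ Q') :
    ∀ (n : ℕ) (t : List α), t.length ≤ n → t ∈ P' → ∃ j, t ∈ coreB Q Q' ^ j * coreY P' Q
  | n, t, hn, ht => by
    by_cases hY : t ∈ (Q ⊓ (1 : Language α)ᶜ) * P'
    · rw [Language.mem_mul] at hY
      obtain ⟨q, hq, p', hp', rfl⟩ := hY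
      obtain ⟨hqQ, hq1⟩ := mem_inf_one_compl.1 hq
      have hqQ' : q ∈ Q' := (hQ' p' hp' q).1 ht
      obtain ⟨j₁, h1⟩ := coreD_le_pow Q Q' q.length q le_rfl (mem_coreD.2 ⟨⟨hqQ, hqQ'⟩, hq1⟩)
      have lq : 0 < q.length := List.length_pos_of_ne_nil hq1
      rw [List.length_append] at hn
      cases n with
      | zero => omega
      | succ n =>
        obtain ⟨j₂, h2⟩ := exists_pow_mul hQ' n p' (by omega) hp'
        refine ⟨j₁ + 1 + j₂, ?_⟩
        rw [pow_add, mul_assoc]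
        exact Language.append_mem_mul h1 h2
    · exact ⟨0, by rw [pow_zero, one_mul]; exact mem_coreY.2 ⟨ht, hY⟩⟩

theorem splitCount_X_append (hQ : ∀ u ∈ P, ∀ x, u ++ x ∈ P ↔ x ∈ Q)
    (hQ' : ∀ v ∈ P', ∀ x, x ++ v ∈ P' ↔ x ∈ Q') {x t : List α} (hx : x ∈ coreX P Q')
    (ht : t ∈ P') : splitCount P P' (x ++ t) = splitCount Q P' t := by
  classical
  obtain ⟨hxP, hxn⟩ := mem_coreX.1 hx
  rw [splitCount_append]
  have hlq : P.leftQuotient x = Q := by
    ext y
    exact hQ x hxP y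
  rw [hlq, Finset.sum_eq_zero, zero_add]
  intro i hi
  rw [if_neg]
  rintro ⟨h1, h2⟩
  apply hxn
  rw [Language.mem_mul]
  exact ⟨x.take i, h1, x.drop i,
    mem_inf_one_compl.2 ⟨(hQ' t ht _).1 h2, drop_ne_nil (Finset.mem_range.1 hi)⟩,
    List.take_append_drop i x⟩

theorem exists_X_split (hQ' : ∀ v ∈ P', ∀ x, x ++ v ∈ P' ↔ x ∈ Q') :
    ∀ (n : ℕ) (p p' : List α), p.length ≤ n → p ∈ P → p' ∈ P' →
      ∃ x ∈ coreX P Q', ∃ t ∈ P', p ++ p' = x ++ t
  | n, p, p', hn, hp, hp' => by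
    by_cases hX : p ∈ P * (Q' ⊓ (1 : Language α)ᶜ)
    · rw [Language.mem_mul] at hX
      obtain ⟨p₁, hp₁, q', hq', rfl⟩ := hX
      obtain ⟨hq'Q, hq1⟩ := mem_inf_one_compl.1 hq'
      have lq : 0 < q'.length := List.length_pos_of_ne_nil hq1
      rw [List.length_append] at hn
      cases n with
      | zero => omega
      | succ n =>
        obtain ⟨x, hx, t, ht, e⟩ := exists_X_split hQ' n p₁ (q' ++ p') (by omega) hp₁
          ((hQ' p' hp' q').2 hq'Q)
        exact ⟨x, hx, t, ht, by rw [List.append_assoc, e]⟩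
    · exact ⟨p, mem_coreX.2 ⟨hp, hX⟩, p', hp', rfl⟩

theorem splitCount_of_mem (hQ : ∀ u ∈ P, ∀ x, u ++ x ∈ P ↔ x ∈ Q)
    (hQ' : ∀ v ∈ P', ∀ x, x ++ v ∈ P' ↔ x ∈ Q') {w : List α} {j : ℕ}
    (hw : w ∈ coreX P Q' * (coreB Q Q' ^ j * coreY P' Q)) : splitCount P P' w = j + 1 := by
  rw [Language.mem_mul] at hw
  obtain ⟨x, hx, t, ht, rfl⟩ := hw
  obtain ⟨h1, h2⟩ := splitCount_pow_mul hQ hQ' (mem_coreX.1 hx).1 j t ht
  rw [splitCount_X_append hQ hQ' hx h1, h2]

theorem splitCount_class_char (hQ : ∀ u ∈ P, ∀ x, u ++ x ∈ P ↔ x ∈ Q)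
    (hQ' : ∀ v ∈ P', ∀ x, x ++ v ∈ P' ↔ x ∈ Q') (w : List α) :
    (w ∉ P * P' ∧ splitCount P P' w = 0) ∨
      ∃ j, w ∈ coreX P Q' * (coreB Q Q' ^ j * coreY P' Q) ∧ splitCount P P' w = j + 1 := by
  by_cases hw : w ∈ P * P'
  · right
    rw [Language.mem_mul] at hw
    obtain ⟨p, hp, p', hp', rfl⟩ := hw
    obtain ⟨x, hx, t, ht, e⟩ := exists_X_split hQ' p.length p p' le_rfl hp hp'
    obtain ⟨j, hj⟩ := exists_pow_mul (Q := Q) hQ' t.length t le_rfl ht
    have hmem : p ++ p' ∈ coreX P Q' * (coreB Q Q' ^ j * coreY P' Q) := by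
      rw [e]
      exact Language.append_mem_mul hx hj
    exact ⟨j, hmem, splitCount_of_mem hQ hQ' hmem⟩
  · left
    exact ⟨hw, splitCount_eq_zero_of_notMem hw⟩

theorem splitCount_modEq_eq (hQ : ∀ u ∈ P, ∀ x, u ++ x ∈ P ↔ x ∈ Q)
    (hQ' : ∀ v ∈ P', ∀ x, x ++ v ∈ P' ↔ x ∈ Q') (m : ℕ) (hm : 0 < m) (c : ℕ) :
    modLang (splitCount P P') m c =
      (if c % m = 0 then (P * P')ᶜ else 0) +
        coreX P Q' * (KStar.kstar (coreB Q Q' ^ m) *
          (coreB Q Q' ^ ((c + (m - 1)) % m) * coreY P' Q)) := by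
  apply Language.ext
  intro w
  rw [Language.mem_add, mem_modLang]
  constructor
  · intro hw'
    rcases splitCount_class_char hQ hQ' w with ⟨h1, h2⟩ | ⟨j, h1, h2⟩
    · left
      rw [h2] at hw'
      have hc : c % m = 0 := by
        have h3 : 0 % m = c % m := hw'
        rw [Nat.zero_mod] at h3
        exact h3.symm
      rw [if_pos hc]
      exact h1
    · right
      rw [h2] at hw'
      have hj : j % m = (c + (m - 1)) % m := by
        have h3 : j + 1 + (m - 1) ≡ c + (m - 1) [MOD m] := hw'.add_right _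
        have h4 : j + 1 + (m - 1) = j + m := by omega
        rw [h4] at h3
        have h5 : (j + m) % m = (c + (m - 1)) % m := h3
        rw [Nat.add_mod_right] at h5
        exact h5
      rw [Language.mem_mul] at h1 ⊢
      obtain ⟨x, hx, t, ht, rfl⟩ := h1
      refine ⟨x, hx, t, ?_, rfl⟩
      have hjd : j = m * (j / m) + (c + (m - 1)) % m := by
        rw [← hj]
        exact (Nat.div_add_mod j m).symm
      rw [hjd, pow_add, pow_mul, mul_assoc] at ht
      rw [Language.mem_mul] at ht ⊢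
      obtain ⟨a, ha, b, hb, rfl⟩ := ht
      refine ⟨a, ?_, b, hb, rfl⟩
      rw [Language.kstar_eq_iSup_pow, Language.mem_iSup]
      exact ⟨_, ha⟩
  · rintro (hw | hw)
    · by_cases hc : c % m = 0
      · rw [if_pos hc] at hw
        rw [splitCount_eq_zero_of_notMem hw]
        change 0 % m = c % m
        rw [hc, Nat.zero_mod]
      · rw [if_neg hc] at hw
        exact absurd hw (Language.notMem_zero w)
    · rw [Language.mem_mul] at hw
      obtain ⟨x, hx, t, ht, rfl⟩ := hw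
      rw [Language.mem_mul] at ht
      obtain ⟨a, ha, b, hb, rfl⟩ := ht
      rw [Language.kstar_eq_iSup_pow, Language.mem_iSup] at ha
      obtain ⟨k, ha⟩ := ha
      have hab : a ++ b ∈ coreB Q Q' ^ (m * k + (c + (m - 1)) % m) * coreY P' Q := by
        rw [pow_add, pow_mul, mul_assoc]
        exact Language.append_mem_mul ha hb
      have hcount := splitCount_of_mem hQ hQ' (Language.append_mem_mul hx hab)
      rw [hcount]
      change (m * k + (c + (m - 1)) % m + 1) % m = c % m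
      have e1 : m * k + (c + (m - 1)) % m + 1 = ((c + (m - 1)) % m + 1) + m * k := by ring
      rw [e1, Nat.add_mul_mod_self_left, Nat.add_mod, Nat.mod_mod, ← Nat.add_mod]
      have e2 : c + (m - 1) + 1 = c + m := by omega
      rw [e2, Nat.add_mod_right]

theorem hasGSH_pow {L : Language α} {n : ℕ} (h : HasGSH L n) : ∀ k : ℕ, HasGSH (L ^ k) n
  | 0 => by
    rw [pow_zero]
    exact HasGSH.one
  | k + 1 => by
    rw [pow_succ]
    exact (hasGSH_pow h k).mul h

theorem hasGSH_const (p : Prop) (n : ℕ) : HasGSH ({_w | p} : Language α) n := by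
  by_cases hp : p
  · refine HasGSH.top.of_eq ?_
    ext w
    exact ⟨fun _ => hp, fun _ => trivial⟩
  · refine HasGSH.zero.of_eq ?_
    ext w
    exact ⟨fun h => absurd h (Language.notMem_zero w), fun h => absurd h hp⟩

theorem hasGSH_splitCount_core (hQ : ∀ u ∈ P, ∀ x, u ++ x ∈ P ↔ x ∈ Q)
    (hQ' : ∀ v ∈ P', ∀ x, x ++ v ∈ P' ↔ x ∈ Q') (hP : HasGSH P 0) (hP' : HasGSH P' 0)
    (hQs : HasGSH Q 0) (hQ's : HasGSH Q' 0) (m : ℕ) (hm : 0 < m) (c : ℕ) :
    HasGSH (modLang (splitCount P P') m c) 1 := by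
  rw [splitCount_modEq_eq hQ hQ' m hm c]
  have h1 : HasGSH ((1 : Language α)ᶜ) 0 := HasGSH.one.compl
  have hD : HasGSH (coreD Q Q') 0 := (hQs.inf hQ's).inf h1
  have hB : HasGSH (coreB Q Q') 0 := hD.inf (hD.mul hD).compl
  have hX : HasGSH (coreX P Q') 0 := hP.inf (hP.mul (hQ's.inf h1)).compl
  have hY : HasGSH (coreY P' Q) 0 := hP'.inf ((hQs.inf h1).mul hP').compl
  apply HasGSH.add
  · by_cases hc : c % m = 0
    · rw [if_pos hc]
      exact ((hP.mul hP').compl).mono (Nat.zero_le 1)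
    · rw [if_neg hc]
      exact HasGSH.zero
  · exact (hX.mono (Nat.zero_le 1)).mul (((hasGSH_pow hB m).kstar).mul
      (((hasGSH_pow hB _).mul hY).mono (Nat.zero_le 1)))

/-- Modular counting of the factorizations of a word into a word of a star-free class `P` of a
right congruence and a word of a star-free class `P'` of a left congruence. -/
theorem hasGSH_splitCount_of_classes
    (hPc : ∀ a ∈ P, ∀ b ∈ P, ∀ x, a ++ x ∈ P ↔ b ++ x ∈ P)
    (hP'c : ∀ a ∈ P', ∀ b ∈ P', ∀ x, x ++ a ∈ P' ↔ x ++ b ∈ P')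
    (hP : HasGSH P 0) (hP' : HasGSH P' 0) (m : ℕ) (hm : 0 < m) (c : ℕ) :
    HasGSH (modLang (splitCount P P') m c) 1 := by
  by_cases hne : (∃ u, u ∈ P) ∧ ∃ v, v ∈ P'
  · obtain ⟨⟨u₀, hu₀⟩, v₀, hv₀⟩ := hne
    exact hasGSH_splitCount_core (Q := P.leftQuotient u₀) (Q' := rquot P' v₀)
      (fun u hu x => hPc u hu u₀ hu₀ x) (fun v hv x => hP'c v hv v₀ hv₀ x) hP hP'
      (hP.leftQuotient u₀) (hP'.rquot v₀) m hm c
  · refine (hasGSH_const (0 ≡ c [MOD m]) 1).of_eq ?_
    apply Language.ext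
    intro w
    have h0 : splitCount P P' w = 0 := by
      apply splitCount_eq_zero_of_notMem
      intro hw
      rw [Language.mem_mul] at hw
      obtain ⟨a, ha, b, hb, -⟩ := hw
      exact hne ⟨⟨a, ha⟩, b, hb⟩
    change 0 ≡ c [MOD m] ↔ splitCount P P' w ≡ c [MOD m]
    rw [h0]

end core

section assembly

theorem hasGSH_sum_modEq {ι : Type*} (s : Finset ι) (f : ι → List α → ℕ) (m : ℕ) (hm : 0 < m)
    (h : ∀ i ∈ s, ∀ c, HasGSH (modLang (f i) m c) 1) :
    ∀ c, HasGSH (modLang (fun w => ∑ i ∈ s, f i w) m c) 1 := by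
  classical
  obtain ⟨m', rfl⟩ : ∃ m', m = m' + 1 := ⟨m - 1, by omega⟩
  induction s using Finset.induction_on with
  | empty =>
    intro c
    refine (hasGSH_const (0 ≡ c [MOD (m' + 1)]) 1).of_eq ?_
    apply Language.ext
    intro w
    rw [mem_modLang, Finset.sum_empty]
    rfl
  | insert a s ha ih =>
    intro c
    have ih' := ih (fun i hi => h i (Finset.mem_insert_of_mem hi))
    have ha' := h a (Finset.mem_insert_self a s)
    have e : modLang (fun w => ∑ i ∈ insert a s, f i w) (m' + 1) c =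
        ⨆ j : Fin (m' + 1), (modLang (f a) (m' + 1) (j : ℕ) ⊓
          modLang (fun w => ∑ i ∈ s, f i w) (m' + 1) (c + m' * (j : ℕ))) := by
      apply Language.ext
      intro w
      rw [Language.mem_iSup]
      change (∑ i ∈ insert a s, f i w) ≡ c [MOD (m' + 1)] ↔
        ∃ j : Fin (m' + 1), f a w ≡ (j : ℕ) [MOD (m' + 1)] ∧
          (∑ i ∈ s, f i w) ≡ c + m' * (j : ℕ) [MOD (m' + 1)]
      rw [Finset.sum_insert ha]
      constructor
      · intro hw
        refine ⟨⟨f a w % (m' + 1), Nat.mod_lt _ (Nat.succ_pos m')⟩, (Nat.mod_modEq _ _).symm, ?_⟩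
        have h1 : f a w % (m' + 1) + ∑ i ∈ s, f i w ≡ c [MOD (m' + 1)] :=
          ((Nat.mod_modEq (f a w) (m' + 1)).add_right _).trans hw
        have h2 := h1.add_right (m' * (f a w % (m' + 1)))
        have h3 : f a w % (m' + 1) + ∑ i ∈ s, f i w + m' * (f a w % (m' + 1)) =
            (∑ i ∈ s, f i w) + (m' + 1) * (f a w % (m' + 1)) := by ring
        rw [h3] at h2
        refine Nat.ModEq.trans ?_ h2
        change (∑ i ∈ s, f i w) % (m' + 1) =
          ((∑ i ∈ s, f i w) + (m' + 1) * (f a w % (m' + 1))) % (m' + 1)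
        rw [Nat.add_mul_mod_self_left]
      · rintro ⟨j, h1, h2⟩
        have h3 := h1.add h2
        refine h3.trans ?_
        have h4 : (j : ℕ) + (c + m' * (j : ℕ)) = c + (m' + 1) * (j : ℕ) := by ring
        rw [h4]
        change (c + (m' + 1) * (j : ℕ)) % (m' + 1) = c % (m' + 1)
        rw [Nat.add_mul_mod_self_left]
    rw [e]
    exact HasGSH.iSup _ (fun j => (ha' j).inf (ih' _))

open Classical in
theorem splitCount_eq_sum (K K' : Language α) (cls cls' : Finset (Language α))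
    (h : ∀ x, (∑ P ∈ cls, if x ∈ P then 1 else 0) = if x ∈ K then 1 else 0)
    (h' : ∀ x, (∑ P ∈ cls', if x ∈ P then 1 else 0) = if x ∈ K' then 1 else 0) (w : List α) :
    splitCount K K' w = ∑ p ∈ cls ×ˢ cls', splitCount p.1 p.2 w := by
  have key : ∀ x y : List α, (if x ∈ K ∧ y ∈ K' then 1 else 0) =
      ∑ P ∈ cls, ∑ P' ∈ cls', if x ∈ P ∧ y ∈ P' then 1 else 0 := by
    intro x y
    have hmul : ∀ P P' : Language α, (if x ∈ P ∧ y ∈ P' then 1 else 0 : ℕ) =
        (if x ∈ P then 1 else 0) * (if y ∈ P' then 1 else 0) := by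
      intro P P'
      by_cases h1 : x ∈ P <;> by_cases h2 : y ∈ P' <;> simp [h1, h2]
    simp_rw [hmul, ← Finset.mul_sum, ← Finset.sum_mul, h, h']
  rw [Finset.sum_product]
  unfold splitCount
  rw [Finset.sum_congr rfl (fun i _ => key (w.take i) (w.drop i)), Finset.sum_comm]
  apply Finset.sum_congr rfl
  intro P _
  rw [Finset.sum_comm]

open Classical in
theorem exists_rclasses {K : Language α} (hK : HasGSH K 0) : ∃ cls : Finset (Language α),
    (∀ P ∈ cls, HasGSH P 0 ∧ ∀ a ∈ P, ∀ b ∈ P, ∀ x, a ++ x ∈ P ↔ b ++ x ∈ P) ∧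
    (∀ x, (∑ P ∈ cls, if x ∈ P then 1 else 0) = if x ∈ K then 1 else 0) := by
  have hfin : (rclass K '' (K : Set (List α))).Finite :=
    (finite_range_rclass hK).subset (Set.image_subset_range _ _)
  refine ⟨hfin.toFinset, ?_, ?_⟩
  · intro P hP
    obtain ⟨u, hu, rfl⟩ := hfin.mem_toFinset.1 hP
    exact ⟨hasGSH_rclass hK u, rclass_congr K u⟩
  · intro x
    by_cases hx : x ∈ K
    · rw [if_pos hx, Finset.sum_eq_single (rclass K x)]
      · rw [if_pos (mem_rclass_self K x)]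
      · intro P hP hne
        rw [if_neg]
        intro hxP
        obtain ⟨u, hu, rfl⟩ := hfin.mem_toFinset.1 hP
        exact hne (rclass_eq_of_mem hxP).symm
      · intro hnot
        exact absurd (hfin.mem_toFinset.2 ⟨x, hx, rfl⟩) hnot
    · rw [if_neg hx]
      apply Finset.sum_eq_zero
      intro P hP
      rw [if_neg]
      intro hxP
      obtain ⟨u, hu, rfl⟩ := hfin.mem_toFinset.1 hP
      exact hx (rclass_le hu hxP)

open Classical in
theorem exists_lclasses {K : Language α} (hK : HasGSH K 0) : ∃ cls : Finset (Language α),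
    (∀ P ∈ cls, HasGSH P 0 ∧ ∀ a ∈ P, ∀ b ∈ P, ∀ x, x ++ a ∈ P ↔ x ++ b ∈ P) ∧
    (∀ x, (∑ P ∈ cls, if x ∈ P then 1 else 0) = if x ∈ K then 1 else 0) := by
  have hfin : (lclass K '' (K : Set (List α))).Finite :=
    (finite_range_lclass hK).subset (Set.image_subset_range _ _)
  refine ⟨hfin.toFinset, ?_, ?_⟩
  · intro P hP
    obtain ⟨u, hu, rfl⟩ := hfin.mem_toFinset.1 hP
    exact ⟨hasGSH_lclass hK u, lclass_congr K u⟩
  · intro x
    by_cases hx : x ∈ K
    · rw [if_pos hx, Finset.sum_eq_single (lclass K x)]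
      · rw [if_pos (mem_lclass_self K x)]
      · intro P hP hne
        rw [if_neg]
        intro hxP
        obtain ⟨u, hu, rfl⟩ := hfin.mem_toFinset.1 hP
        exact hne (lclass_eq_of_mem hxP).symm
      · intro hnot
        exact absurd (hfin.mem_toFinset.2 ⟨x, hx, rfl⟩) hnot
    · rw [if_neg hx]
      apply Finset.sum_eq_zero
      intro P hP
      rw [if_neg]
      intro hxP
      obtain ⟨u, hu, rfl⟩ := hfin.mem_toFinset.1 hP
      exact hx (lclass_le hu hxP)

/-- **Modular counting of factorizations with star-free components.** -/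
theorem hasGSH_splitCount {K K' : Language α} (hK : HasGSH K 0) (hK' : HasGSH K' 0) (m : ℕ)
    (hm : 0 < m) (c : ℕ) : HasGSH (modLang (splitCount K K') m c) 1 := by
  classical
  obtain ⟨cls, h1, h2⟩ := exists_rclasses hK
  obtain ⟨cls', h1', h2'⟩ := exists_lclasses hK'
  have e : modLang (splitCount K K') m c =
      modLang (fun w => ∑ p ∈ cls ×ˢ cls', splitCount p.1 p.2 w) m c := by
    apply Language.ext
    intro w
    rw [mem_modLang, mem_modLang, splitCount_eq_sum K K' cls cls' h2 h2' w]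
  rw [e]
  apply hasGSH_sum_modEq (cls ×ˢ cls') (fun p w => splitCount p.1 p.2 w) m hm
  rintro ⟨P, P'⟩ hp c'
  obtain ⟨hP, hP'⟩ := Finset.mem_product.1 hp
  exact hasGSH_splitCount_of_classes (h1 P hP).2 (h1' P' hP').2 (h1 P hP).1 (h1' P' hP').1 m hm c'

theorem ncard_eq_splitCount (K K' : Language α) (w : List α) :
    Set.ncard {i : ℕ | i ≤ w.length ∧ w.take i ∈ K ∧ w.drop i ∈ K'} = splitCount K K' w := by
  classical
  have e : {i : ℕ | i ≤ w.length ∧ w.take i ∈ K ∧ w.drop i ∈ K'} =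
      ↑((Finset.range (w.length + 1)).filter (fun i => w.take i ∈ K ∧ w.drop i ∈ K')) := by
    ext i
    simp
  rw [e, Set.ncard_coe_finset, Finset.card_filter]
  unfold splitCount
  apply Finset.sum_congr rfl
  intro i _
  congr

/-- **Modular counting of factorizations with star-free components**, stated with the number of
cut positions. -/
theorem hasGSH_ncard_split {K K' : Language α} (hK : HasGSH K 0) (hK' : HasGSH K' 0) (m : ℕ)
    (hm : 0 < m) (c : ℕ) :
    HasGSH ({w : List α | Set.ncard {i : ℕ | i ≤ w.length ∧ w.take i ∈ K ∧ w.drop i ∈ K'}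
      ≡ c [MOD m]} : Language α) 1 := by
  refine (hasGSH_splitCount hK hK' m hm c).of_eq ?_
  apply Language.ext
  intro w
  change splitCount K K' w ≡ c [MOD m] ↔
    Set.ncard {i : ℕ | i ≤ w.length ∧ w.take i ∈ K ∧ w.drop i ∈ K'} ≡ c [MOD m]
  rw [ncard_eq_splitCount]

end assembly

end Vale.Agent.H88
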