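import Vale.Agent.H88.ReturnCode

/-!
# Odometer automata and nested modular counting
-/

namespace Vale.Agent.H88

open Language

universe u

section odometer

variable {α : Type u}

/-- The odometer step on `ZMod N`: the letter `x` adds `d x` to the counter, provided `d x`
divides the current value of the counter. -/
def odoStep (N : ℕ) (d : α → ℕ) : ZMod N → α → ZMod N :=
  fun v x => if d x ∣ v.val then v + (d x : ZMod N) else v

theorem odoStep_po (N : ℕ) [NeZero N] (d : α → ℕ) (hd : ∀ x, d x ∣ N) (v : ZMod N) (x : α) :
    odoStep N d v x = 0 ∨ odoStep N d v x = v ∨ v.val < (odoStep N d v x).val := by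
  unfold odoStep
  split_ifs with h
  · have hN : 0 < N := Nat.pos_of_ne_zero (NeZero.ne N)
    have hvlt : v.val < N := ZMod.val_lt v
    have hdpos : 0 < d x := Nat.pos_of_dvd_of_pos (hd x) hN
    have hle : v.val + d x ≤ N := by
      obtain ⟨i, hi⟩ := h
      obtain ⟨j, hj⟩ := hd x
      have hij : i < j := by
        by_contra hcon
        have : d x * j ≤ d x * i := Nat.mul_le_mul_left _ (Nat.not_lt.1 hcon)
        omega
      calc v.val + d x = d x * (i + 1) := by rw [hi]; ring
        _ ≤ d x * j := Nat.mul_le_mul_left _ hij
        _ = N := hj.symm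
    rcases Nat.lt_or_eq_of_le hle with hlt | heq
    · right; right
      have hdval : ((d x : ℕ) : ZMod N).val = d x := ZMod.val_natCast_of_lt (by omega)
      rw [ZMod.val_add_of_lt (by rw [hdval]; exact hlt), hdval]
      omega
    · left
      have h2 : ((v.val + d x : ℕ) : ZMod N) = 0 := by rw [heq]; exact ZMod.natCast_self N
      rw [Nat.cast_add, ZMod.natCast_zmod_val] at h2
      exact h2
  · right; left; rfl

/-- Every path language of an odometer automaton has generalized star height at most one. -/
theorem hasGSH_odometer [Fintype α] (N : ℕ) [NeZero N] (d : α → ℕ) (hd : ∀ x, d x ∣ N)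
    (s t : ZMod N) : HasGSH (pathLang (odoStep N d) s t) 1 :=
  hasGSH_pathLang_of_removal (odoStep N d) 0 (fun v => v.val)
    (fun p a _ => odoStep_po N d hd p a) s t

end odometer

section counting

variable {α : Type u} [DecidableEq α]

/-- The number of positions `i` of the word `w` carrying the letter `b` such that the number
of occurrences of `a` strictly before position `i` is congruent to `r` modulo `k`. -/
def nestedCount (a b : α) (k r : ℕ) (w : List α) : ℕ :=
  ((Finset.range w.length).filter
    (fun i => w[i]? = some b ∧ (w.take i).count a ≡ r [MOD k])).card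

theorem nestedCount_nil (a b : α) (k r : ℕ) : nestedCount a b k r [] = 0 := by
  simp [nestedCount]

theorem nestedCount_append_singleton (a b : α) (k r : ℕ) (w : List α) (x : α) :
    nestedCount a b k r (w ++ [x]) =
      nestedCount a b k r w + if (x = b ∧ w.count a ≡ r [MOD k]) then 1 else 0 := by
  unfold nestedCount
  have hlen : (w ++ [x]).length = w.length + 1 := by simp
  rw [hlen, Finset.range_add_one, Finset.filter_insert]
  have hcongr : (Finset.range w.length).filter
      (fun i => (w ++ [x])[i]? = some b ∧ ((w ++ [x]).take i).count a ≡ r [MOD k]) =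
      (Finset.range w.length).filter
      (fun i => w[i]? = some b ∧ (w.take i).count a ≡ r [MOD k]) := by
    apply Finset.filter_congr
    intro i hi
    have hi' : i < w.length := Finset.mem_range.1 hi
    rw [List.getElem?_append_left hi', List.take_append_of_le_length hi'.le]
  rw [hcongr]
  have hlast : ((w ++ [x])[w.length]? = some b ∧
      ((w ++ [x]).take w.length).count a ≡ r [MOD k]) ↔ (x = b ∧ w.count a ≡ r [MOD k]) := by
    rw [List.getElem?_concat_length, List.take_left']
    · simp
    · rfl
  by_cases hc : x = b ∧ w.count a ≡ r [MOD k]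
  · rw [if_pos (hlast.2 hc), if_pos hc, Finset.card_insert_of_notMem]
    simp
  · rw [if_neg (fun h => hc (hlast.1 h)), if_neg hc]
    rfl

/-- The digit assignment of the two-level odometer: the clock letter `a` has digit `1`,
the counted letter `b` has digit `k`, all other letters are neutral (digit `k * m`). -/
def abDigit (a b : α) (k m : ℕ) : α → ℕ :=
  fun x => if x = a then 1 else if x = b then k else k * m

theorem abDigit_dvd (a b : α) (k m : ℕ) (x : α) : abDigit a b k m x ∣ k * m := by
  unfold abDigit
  split_ifs
  · exact one_dvd _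
  · exact dvd_mul_right k m
  · exact dvd_rfl

theorem dvd_shift_iff {k : ℕ} (r c : ℕ) (hk : 0 < k) :
    k ∣ (k - 1) * r + c ↔ c ≡ r [MOD k] := by
  have e : r + (k - 1) * r = k * r := by
    obtain ⟨j, rfl⟩ : ∃ j, k = j + 1 := ⟨k - 1, by omega⟩
    simp
    ring
  have h1 : r + (k - 1) * r ≡ 0 [MOD k] := by
    rw [e]
    exact (Nat.modEq_zero_iff_dvd).2 (dvd_mul_right k r)
  constructor
  · intro h
    have h0 : (k - 1) * r + c ≡ 0 [MOD k] := (Nat.modEq_zero_iff_dvd).2 h
    have h2 : c + (k - 1) * r ≡ r + (k - 1) * r [MOD k] := by
      rw [add_comm c]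
      exact h0.trans h1.symm
    exact Nat.ModEq.add_right_cancel' _ h2
  · intro h
    have h2 : c + (k - 1) * r ≡ r + (k - 1) * r [MOD k] := h.add_right _
    have h3 : c + (k - 1) * r ≡ 0 [MOD k] := h2.trans h1
    rw [add_comm]
    exact (Nat.modEq_zero_iff_dvd).1 h3

/-- The value of the two-level odometer after reading `w`. -/
theorem odo_invariant (a b : α) (hab : a ≠ b) (k m r : ℕ) (hk : 0 < k) (_hm : 0 < m)
    (w : List α) :
    w.foldl (odoStep (k * m) (abDigit a b k m)) (((k - 1) * r : ℕ) : ZMod (k * m)) =
      (((k - 1) * r + w.count a + k * nestedCount a b k r w : ℕ) : ZMod (k * m)) := by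
  induction w using List.reverseRecOn with
  | nil => simp [nestedCount_nil]
  | append_singleton w x ih =>
    rw [List.foldl_append, List.foldl_cons, List.foldl_nil, ih, nestedCount_append_singleton]
    unfold odoStep abDigit
    by_cases hxa : x = a
    · subst hxa
      have hxb : ¬ (x = b) := hab
      rw [if_pos rfl, if_pos (one_dvd _)]
      simp only [hxb, false_and, if_false, List.count_append, List.count_singleton_self]
      push_cast
      ring
    · by_cases hxb : x = b
      · subst hxb
        rw [if_neg hxa, if_pos rfl]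
        have hcnt : (w ++ [x]).count a = w.count a := by
          rw [List.count_append]
          simp [hxa]
        have hdvd : k ∣ (((k - 1) * r + w.count a + k * nestedCount a x k r w : ℕ) :
            ZMod (k * m)).val ↔ w.count a ≡ r [MOD k] := by
          rw [ZMod.val_natCast, Nat.dvd_mod_iff (dvd_mul_right k m),
            (Nat.dvd_add_left (dvd_mul_right k _)), dvd_shift_iff r _ hk]
        rw [hcnt]
        by_cases hc : w.count a ≡ r [MOD k]
        · rw [if_pos (hdvd.2 hc), if_pos ⟨rfl, hc⟩]
          push_cast
          ring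
        · rw [if_neg (fun h => hc (hdvd.1 h)), if_neg (fun h => hc h.2)]
          simp
      · rw [if_neg hxa, if_neg hxb]
        have hcnt : (w ++ [x]).count a = w.count a := by
          rw [List.count_append]
          simp [hxa]
        have hif : (if (x = b ∧ w.count a ≡ r [MOD k]) then 1 else 0) = 0 :=
          if_neg (fun h => hxb h.1)
        rw [hcnt, hif]
        by_cases hd : k * m ∣ (((k - 1) * r + w.count a + k * nestedCount a b k r w : ℕ) :
            ZMod (k * m)).val
        · rw [if_pos hd]
          simp
        · rw [if_neg hd]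
          simp

/-- The value of the one-level odometer (counting `a` modulo `N`). -/
theorem count_invariant (a : α) (N : ℕ) (w : List α) :
    w.foldl (odoStep N (fun x => if x = a then 1 else N)) (0 : ZMod N) =
      ((w.count a : ℕ) : ZMod N) := by
  induction w using List.reverseRecOn with
  | nil => simp
  | append_singleton w x ih =>
    rw [List.foldl_append, List.foldl_cons, List.foldl_nil, ih]
    unfold odoStep
    beta_reduce
    by_cases hxa : x = a
    · subst hxa
      rw [if_pos rfl, if_pos (one_dvd _)]
      simp
    · rw [if_neg hxa]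
      have hcnt : (w ++ [x]).count a = w.count a := by
        rw [List.count_append]
        simp [hxa]
      rw [hcnt]
      by_cases hd : N ∣ ((w.count a : ℕ) : ZMod N).val
      · rw [if_pos hd]
        simp
      · rw [if_neg hd]

/-- Counting a letter modulo `N`. -/
theorem hasGSH_count [Fintype α] (a : α) (N : ℕ) (hN : 0 < N) (e : ℕ) :
    HasGSH ({w : List α | w.count a ≡ e [MOD N]} : Language α) 1 := by
  have : NeZero N := ⟨hN.ne'⟩
  have h := hasGSH_odometer N (fun x => if x = a then 1 else N)
    (fun x => by split_ifs; exact one_dvd _; exact dvd_rfl) 0 ((e : ℕ) : ZMod N)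
  refine h.of_eq ?_
  ext w
  rw [mem_pathLang, count_invariant, ZMod.natCast_eq_natCast_iff]
  rfl

/-- **Nested modular counting.** For distinct letters `a`, `b` and moduli `k, m ≥ 1`, the
language of all words in which the number of occurrences of `b` preceded by a number of
`a`'s congruent to `r` modulo `k` is congruent to `c` modulo `m` has generalized star height
at most one. -/
theorem hasGSH_nestedCount [Fintype α] (a b : α) (hab : a ≠ b) (k m : ℕ) (hk : 0 < k)
    (hm : 0 < m) (r c : ℕ) :
    HasGSH ({w : List α | nestedCount a b k r w ≡ c [MOD m]} : Language α) 1 := by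
  have hN : 0 < k * m := Nat.mul_pos hk hm
  have : NeZero (k * m) := ⟨hN.ne'⟩
  have hS : ∀ e : ℕ, HasGSH ({w : List α | w.count a ≡ e [MOD k * m]} : Language α) 1 :=
    fun e => hasGSH_count a (k * m) hN e
  have hT : ∀ e : ℕ, HasGSH (pathLang (odoStep (k * m) (abDigit a b k m))
      (((k - 1) * r : ℕ) : ZMod (k * m)) ((((k - 1) * r + e + k * c : ℕ)) : ZMod (k * m))) 1 :=
    fun e => hasGSH_odometer (k * m) (abDigit a b k m) (abDigit_dvd a b k m) _ _
  have key : HasGSH (⨆ e : Fin (k * m), ({w : List α | w.count a ≡ (e : ℕ) [MOD k * m]} :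
      Language α) ⊓ pathLang (odoStep (k * m) (abDigit a b k m))
      (((k - 1) * r : ℕ) : ZMod (k * m)) ((((k - 1) * r + (e : ℕ) + k * c : ℕ)) : ZMod (k * m))) 1 :=
    HasGSH.iSup _ fun e => (hS e).inf (hT e)
  refine key.of_eq ?_
  ext w
  rw [Language.mem_iSup]
  constructor
  · rintro ⟨e, h1, h2⟩
    have h1' : w.count a ≡ (e : ℕ) [MOD k * m] := h1
    have h2' : w.foldl (odoStep (k * m) (abDigit a b k m)) (((k - 1) * r : ℕ) : ZMod (k * m)) =
        ((((k - 1) * r + (e : ℕ) + k * c : ℕ)) : ZMod (k * m)) := h2
    rw [odo_invariant a b hab k m r hk hm, ZMod.natCast_eq_natCast_iff] at h2'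
    have h3 : (k - 1) * r + w.count a ≡ (k - 1) * r + (e : ℕ) [MOD k * m] := h1'.add_left _
    have h4 : k * nestedCount a b k r w ≡ k * c [MOD k * m] := Nat.ModEq.add_left_cancel h3 h2'
    exact Nat.ModEq.mul_left_cancel' hk.ne' h4
  · intro hw
    have hw' : nestedCount a b k r w ≡ c [MOD m] := hw
    have h1 : w.count a ≡ w.count a % (k * m) [MOD k * m] := (Nat.mod_modEq _ _).symm
    refine ⟨⟨w.count a % (k * m), Nat.mod_lt _ hN⟩, h1, ?_⟩
    change w.foldl (odoStep (k * m) (abDigit a b k m)) (((k - 1) * r : ℕ) : ZMod (k * m)) =
        ((((k - 1) * r + w.count a % (k * m) + k * c : ℕ)) : ZMod (k * m))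
    rw [odo_invariant a b hab k m r hk hm, ZMod.natCast_eq_natCast_iff]
    exact (h1.add_left _).add (Nat.ModEq.mul_left' k hw')

end counting

end Vale.Agent.H88
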