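import Vale.Agent.H88.LinHomeo

/-!
# Affine homeomorphisms of Cantor space that preserve Turing equivalence

Main result (`affine_main`): a homeomorphism `Φ` of Cantor space `ℕ → Bool` which is affine
over the two-element field (`Φ (A + B + C) = Φ A + Φ B + Φ C` for coordinatewise `xor`) and
maps Turing equivalent sets to Turing equivalent sets is computable: `Φ A = L A + Z` for a
computable row-finite matrix `L` and a computable set `Z`.  Hence `Φ A` is Turing equivalent
to `A` for every `A`.
-/

namespace Vale.Agent.H88

theorem par_unit_eq_foldl (l : List ℕ) (j : ℕ) :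
    par l (unit j) = l.foldl (fun acc i => xor acc (i == j)) false := by
  have key : ∀ (l : List ℕ) (acc : Bool),
      l.foldl (fun acc i => xor acc (i == j)) acc = xor acc (par l (unit j)) := by
    intro l
    induction l with
    | nil => intro acc; simp [par_nil]
    | cons i l ih =>
      intro acc
      rw [List.foldl_cons, ih, par_cons, Bool.xor_assoc]
      by_cases hij : i = j
      · simp [unit, hij]
      · have hb : (i == j) = false := by simpa using hij
        simp [unit, hij, hb]
  rw [key]
  simp

theorem primrec_par_unit : Primrec₂ (fun (l : List ℕ) (j : ℕ) => par l (unit j)) := by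
  have h : Primrec (fun a : List ℕ × ℕ => a.1.foldl (fun s b => xor s (b == a.2)) false) :=
    Primrec.list_foldl Primrec.fst (Primrec.const false)
      ((Primrec.dom_bool₂ xor).comp (Primrec.fst.comp Primrec.snd)
        (Primrec.beq.comp (Primrec.snd.comp Primrec.snd) (Primrec.snd.comp Primrec.fst))).to₂
  exact h.of_eq fun a => (par_unit_eq_foldl a.1 a.2).symm

/-- `invCheck n l` holds iff the parity functional of `l` is the evaluation at `n`. -/
def invCheck (n : ℕ) (l : List ℕ) : Bool :=
  (n :: l).foldl (fun acc b => acc && (par l (unit b) == (b == n))) true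

theorem foldl_and (p : ℕ → Bool) (L : List ℕ) (acc : Bool) :
    L.foldl (fun acc b => acc && p b) acc = (acc && L.all p) := by
  induction L generalizing acc with
  | nil => simp
  | cons b L ih => rw [List.foldl_cons, ih, List.all_cons, Bool.and_assoc]

theorem invCheck_iff (n : ℕ) (l : List ℕ) :
    invCheck n l = true ↔ ∀ B : ℕ → Bool, par l B = B n := by
  unfold invCheck
  rw [foldl_and, Bool.true_and, List.all_eq_true]
  constructor
  · intro h B
    have h1 : ∀ j, par l (unit j) = par [n] (unit j) := by
      intro j
      by_cases hj : j ∈ n :: l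
      · have h2 := h j hj
        rw [beq_iff_eq] at h2
        rw [h2]
        by_cases hjn : j = n
        · simp [par_cons, par_nil, unit, hjn]
        · simp [par_cons, par_nil, unit, hjn, Ne.symm hjn]
      · have hj1 : j ≠ n := fun e => hj (e ▸ List.mem_cons_self ..)
        have hj2 : j ∉ l := fun e => hj (List.mem_cons_of_mem _ e)
        have h3 : par l (unit j) = par l (fun _ => false) :=
          par_congr (fun i hi => by
            have : i ≠ j := fun e => hj2 (e ▸ hi)
            simp [unit, this])
        rw [h3, par_false]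
        simp [par_cons, par_nil, unit, Ne.symm hj1]
    rw [par_ext h1 B]
    simp [par_cons, par_nil]
  · intro h j _
    rw [h (unit j)]
    by_cases hjn : j = n
    · simp [unit, hjn]
    · simp [unit, hjn, Ne.symm hjn]

theorem primrec_invCheck : Primrec₂ invCheck := by
  unfold invCheck
  have h1 : Primrec (fun x : (ℕ × List ℕ) × (Bool × ℕ) => par x.1.2 (unit x.2.2)) :=
    primrec_par_unit.comp (Primrec.snd.comp Primrec.fst) (Primrec.snd.comp Primrec.snd)
  have h2 : Primrec (fun x : (ℕ × List ℕ) × (Bool × ℕ) => x.2.2 == x.1.1) :=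
    Primrec.beq.comp (Primrec.snd.comp Primrec.snd) (Primrec.fst.comp Primrec.fst)
  have h3 : Primrec (fun x : (ℕ × List ℕ) × (Bool × ℕ) =>
      x.2.1 && (par x.1.2 (unit x.2.2) == (x.2.2 == x.1.1))) :=
    Primrec.and.comp (Primrec.fst.comp Primrec.snd) (Primrec.beq.comp h1 h2)
  exact Primrec.list_foldl (Primrec.list_cons.comp Primrec.fst Primrec.snd)
    (Primrec.const true) h3.to₂

/-- If a bijection of Cantor space is given by a row-finite matrix and its inverse by a
computable matrix, then the bijection itself is given by a computable matrix. -/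
theorem matrix_inverse_computable (Φ : (ℕ → Bool) ≃ (ℕ → Bool)) (M : ℕ → List ℕ)
    (hM : ∀ A n, Φ A n = par (M n) A) {R : ℕ → List ℕ} (hR : Computable R)
    (hRspec : ∀ B n, Φ.symm B n = par (R n) B) :
    ∃ L : ℕ → List ℕ, Computable L ∧ ∀ A n, Φ A n = par (L n) A := by
  have key : ∀ (l : List ℕ) (A : ℕ → Bool), par (l.flatMap R) (Φ A) = par l A := by
    intro l A
    rw [par_flatMap]
    congr 1
    funext a
    rw [← hRspec, Equiv.symm_apply_apply]
  have hfm : Computable (fun p : ℕ × List ℕ => p.2.flatMap R) :=
    computable_flatMap Computable.snd (hR.comp Computable.snd)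
  have ht : Computable₂ (fun (n : ℕ) (l : List ℕ) =>
      bif invCheck n (l.flatMap R) then some l else none) :=
    Computable.cond (primrec_invCheck.to_comp.comp Computable.fst hfm)
      (Computable.option_some.comp Computable.snd) (Computable.const none)
  obtain ⟨L, hL, hLspec⟩ := exists_computable_of_search ht (fun n => ⟨M n, M n, by
    have h1 : invCheck n ((M n).flatMap R) = true := (invCheck_iff _ _).mpr fun B => by
      have h2 := key (M n) (Φ.symm B)
      rw [Equiv.apply_symm_apply] at h2
      rw [h2, ← hM, Equiv.apply_symm_apply]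
    simp [h1]⟩)
  refine ⟨L, hL, fun A n => ?_⟩
  obtain ⟨q, hq⟩ := hLspec n
  cases hc : invCheck n (q.flatMap R)
  · rw [hc] at hq
    simp at hq
  · rw [hc] at hq
    simp only [cond_true, Option.some.injEq] at hq
    subst hq
    have h3 := (invCheck_iff _ _).mp hc (Φ A)
    rw [key] at h3
    exact h3.symm

theorem turingReducible_xor {W : ℕ → Bool} (hW : Computable W) (X : ℕ → Bool) :
    TuringReducible (chi (fun n => xor (X n) (W n))) (chi X) := by
  apply RecursiveIn.iff_nat.mpr
  have hg : Computable (fun p : ℕ => (xor (p.unpair.2 == 1) (W p.unpair.1)).toNat) :=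
    (Primrec.dom_bool Bool.toNat).to_comp.comp
      ((Primrec.dom_bool₂ xor).to_comp.comp
        ((Primrec.beq.comp (Primrec.snd.comp Primrec.unpair) (Primrec.const 1)).to_comp)
        (hW.comp (Computable.fst.comp Computable.unpair)))
  have h := Nat.RecursiveIn.comp (recursiveIn_of_computable hg)
    (Nat.RecursiveIn.pair (recursiveIn_of_computable Computable.id)
      (Nat.RecursiveIn.oracle (O := {chi X}) (chi X) rfl))
  refine h.of_eq fun n => ?_
  simp only [chi, id, Seq.seq, Part.map_eq_map, Part.map_some, Part.bind_eq_bind,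
    Part.bind_some, Nat.unpair_pair]
  cases X n <;> rfl

theorem computable_of_reducible {X W : ℕ → Bool} (hW : Computable W)
    (h : TuringReducible (chi X) (chi W)) : Computable X := by
  have h1 : Partrec (chi W) := (Primrec.dom_bool Bool.toNat).to_comp.comp hW
  have h2 : Partrec (chi X) :=
    RecursiveIn.partrec_of_oracle (fun g hg => by rw [Set.mem_singleton_iff.mp hg]; exact h1) h
  exact computable_toNat_iff h2

theorem computable_par {L : ℕ → List ℕ} (hL : Computable L) {W : ℕ → Bool}
    (hW : Computable W) : Computable (fun n => par (L n) W) :=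
  computable_of_reducible hW (turingReducible_par hL W)

/-- Main theorem (affine case): a homeomorphism of Cantor space that is affine over the
two-element field and maps Turing equivalent sets to Turing equivalent sets is computable,
and maps every set to a Turing equivalent set. -/
theorem affine_main (Φ : (ℕ → Bool) ≃ₜ (ℕ → Bool))
    (haff : ∀ A B C : ℕ → Bool, Φ (fun n => xor (xor (A n) (B n)) (C n)) =
      fun n => xor (xor (Φ A n) (Φ B n)) (Φ C n))
    (hT : ∀ A B : ℕ → Bool, TuringEquivalent (chi A) (chi B) →
      TuringEquivalent (chi (Φ A)) (chi (Φ B))) :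
    (∃ (L : ℕ → List ℕ) (Z : ℕ → Bool), Computable L ∧ Computable Z ∧
        ∀ A n, Φ A n = xor (par (L n) A) (Z n)) ∧
      ∀ A : ℕ → Bool, TuringEquivalent (chi (Φ A)) (chi A) := by
  obtain ⟨Z, hZ⟩ : ∃ Z : ℕ → Bool, Z = Φ (fun _ => false) := ⟨_, rfl⟩
  have hxor : ∀ A B : ℕ → Bool,
      Φ (fun n => xor (A n) (B n)) = fun n => xor (xor (Φ A n) (Φ B n)) (Z n) := by
    intro A B
    have h := haff A B (fun _ => false)
    simp only [Bool.xor_false] at h
    rw [h, hZ]
  -- the linear part of `Φ`
  let Λ : (ℕ → Bool) ≃ (ℕ → Bool) :=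
    { toFun := fun A n => xor (Φ A n) (Z n)
      invFun := fun B => Φ.symm (fun n => xor (B n) (Z n))
      left_inv := fun A => by
        have h : (fun n => xor (xor (Φ A n) (Z n)) (Z n)) = Φ A := by
          funext n
          simp
        simp only [h, Homeomorph.symm_apply_apply]
      right_inv := fun B => by
        funext n
        simp only [Homeomorph.apply_symm_apply, Bool.xor_assoc, Bool.xor_self, Bool.xor_false] }
  have hΛ : ∀ A n, Λ A n = xor (Φ A n) (Z n) := fun _ _ => rfl
  have hΛs : ∀ B, Λ.symm B = Φ.symm (fun n => xor (B n) (Z n)) := fun _ => rfl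
  have hΛadd : ∀ A B : ℕ → Bool,
      Λ (fun n => xor (A n) (B n)) = fun n => xor (Λ A n) (Λ B n) := by
    intro A B
    funext n
    have h := congrFun (hxor A B) n
    rw [hΛ, hΛ, hΛ, h]
    cases Φ A n <;> cases Φ B n <;> cases Z n <;> rfl
  have hΛsadd : ∀ A B : ℕ → Bool,
      Λ.symm (fun n => xor (A n) (B n)) = fun n => xor (Λ.symm A n) (Λ.symm B n) := by
    intro A B
    rw [Equiv.symm_apply_eq, hΛadd, Equiv.apply_symm_apply, Equiv.apply_symm_apply]
  have hΛc : Continuous Λ := continuous_pi fun n =>
    (continuous_of_discreteTopology (f := fun b : Bool => xor b (Z n))).comp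
      ((continuous_apply n).comp Φ.continuous)
  have hΛsc : Continuous Λ.symm := Φ.symm.continuous.comp (continuous_pi fun n =>
    (continuous_of_discreteTopology (f := fun b : Bool => xor b (Z n))).comp
      (continuous_apply n))
  obtain ⟨M, hM⟩ := exists_matrix Λ hΛc hΛadd
  obtain ⟨M', hM'⟩ := exists_matrix Λ.symm hΛsc hΛsadd
  have hΛ0 : Λ (fun _ => false) = fun _ => false := by
    funext n
    rw [hΛ, hZ]
    simp
  have hΛs0 : Λ.symm (fun _ => false) = fun _ => false := by
    rw [Equiv.symm_apply_eq, hΛ0]
  have hΦΛ : ∀ X n, Φ X n = xor (Λ X n) (Z n) := fun X n => by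
    rw [hΛ]
    simp
  -- the conjugates of the involutions `P_i` by `Φ` and by `Λ`
  have hconj : ∀ (i : ℕ) (B : ℕ → Bool) (n : ℕ),
      Φ (fun a => par (pmat i a) (Φ.symm B)) n =
        xor (xor (Λ (fun a => par (pmat i a) (Λ.symm B)) n)
          (Λ (fun a => par (pmat i a) (Λ.symm Z)) n)) (Z n) := by
    intro i B n
    have e1 : Φ.symm B = Λ.symm (fun n => xor (B n) (Z n)) := by
      rw [hΛs]
      congr 1
      funext n
      simp
    have e2 : (fun a => par (pmat i a) (fun n => xor (Λ.symm B n) (Λ.symm Z n))) =
        fun a => xor (par (pmat i a) (Λ.symm B)) (par (pmat i a) (Λ.symm Z)) :=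
      funext fun a => par_xor _ _ _
    rw [e1, hΛsadd, e2, hΦΛ, hΛadd]
  have hconj0 : ∀ (i : ℕ) (n : ℕ),
      Φ (fun a => par (pmat i a) (Φ.symm (fun _ => false))) n =
        xor (Λ (fun a => par (pmat i a) (Λ.symm Z)) n) (Z n) := by
    intro i n
    have e : (fun a => par (pmat i a) (fun _ : ℕ => false)) = fun _ => false :=
      funext fun a => par_false _
    rw [hconj, hΛs0, e, hΛ0]
    simp
  have hW : ∀ i, Computable (Φ (fun a => par (pmat i a) (Φ.symm (fun _ => false)))) := fun i =>
    computable_of_reducible (Computable.const false)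
      (conj_equiv_of_preserves Φ.toEquiv hT i (fun _ => false)).1
  have hΘ : ∀ (i : ℕ) (B : ℕ → Bool),
      TuringReducible (chi (Λ (fun a => par (pmat i a) (Λ.symm B)))) (chi B) := by
    intro i B
    have e : Λ (fun a => par (pmat i a) (Λ.symm B)) = fun n =>
        xor (Φ (fun a => par (pmat i a) (Φ.symm B)) n)
          (Φ (fun a => par (pmat i a) (Φ.symm (fun _ => false))) n) := by
      funext n
      rw [hconj, hconj0]
      cases Λ (fun a => par (pmat i a) (Λ.symm B)) n <;>
        cases Λ (fun a => par (pmat i a) (Λ.symm Z)) n <;> cases Z n <;> rfl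
    rw [e]
    exact (turingReducible_xor (hW i) _).trans
      (conj_equiv_of_preserves Φ.toEquiv hT i B).1
  obtain ⟨R, hR, hRspec⟩ := inverse_computable Λ M M' hM hM' hΘ
  obtain ⟨L, hL, hLspec⟩ := matrix_inverse_computable Λ M hM hR hRspec
  -- the translation part is computable
  have hU : ∀ i, Computable (Λ.symm (Φ (fun a => par (pmat i a) (Φ.symm (fun _ => false))))) :=
    fun i => by
      have e : Λ.symm (Φ (fun a => par (pmat i a) (Φ.symm (fun _ => false)))) =
          fun n => par (R n) (Φ (fun a => par (pmat i a) (Φ.symm (fun _ => false)))) :=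
        funext (hRspec _)
      rw [e]
      exact computable_par hR (hW i)
  have hUspec : ∀ i n, n % 2 = i →
      Λ.symm (Φ (fun a => par (pmat i a) (Φ.symm (fun _ => false)))) n = Λ.symm Z (n + 1) := by
    intro i n hn
    have e : Φ (fun a => par (pmat i a) (Φ.symm (fun _ => false))) =
        fun n => xor (Λ (fun a => par (pmat i a) (Λ.symm Z)) n) (Z n) := funext (hconj0 i)
    rw [e, hΛsadd, Equiv.symm_apply_apply]
    show xor (par (pmat i n) (Λ.symm Z)) (Λ.symm Z n) = Λ.symm Z (n + 1)
    rw [par_pmat, if_pos hn]
    cases Λ.symm Z n <;> cases Λ.symm Z (n + 1) <;> rfl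
  have hZ' : Computable (Λ.symm Z) := by
    have hstep : Computable₂ (fun (_ : ℕ) (k : ℕ) =>
        bif k % 2 == 0 then Λ.symm (Φ (fun a => par (pmat 0 a) (Φ.symm (fun _ => false)))) k
        else Λ.symm (Φ (fun a => par (pmat 1 a) (Φ.symm (fun _ => false)))) k) :=
      Computable.cond
        ((Primrec.beq.comp (Primrec.nat_mod.comp Primrec.snd (Primrec.const 2))
          (Primrec.const 0)).to_comp)
        ((hU 0).comp Computable.snd) ((hU 1).comp Computable.snd)
    refine (Computable.nat_casesOn Computable.id (Computable.const (Λ.symm Z 0)) hstep).of_eq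
      fun m => ?_
    cases m with
    | zero => rfl
    | succ k =>
      change (bif k % 2 == 0 then _ else _) = _
      rcases Nat.mod_two_eq_zero_or_one k with h | h
      · rw [h]
        exact hUspec 0 k h
      · rw [h]
        exact hUspec 1 k h
  have hZc : Computable Z := by
    have e : Z = fun n => par (L n) (Λ.symm Z) := by
      funext n
      rw [← hLspec, Equiv.apply_symm_apply]
    rw [e]
    exact computable_par hL hZ'
  have hΦL : ∀ A n, Φ A n = xor (par (L n) A) (Z n) := fun A n => by
    rw [hΦΛ, hLspec]
  refine ⟨⟨L, Z, hL, hZc, hΦL⟩, fun A => ⟨?_, ?_⟩⟩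
  · have e : Φ A = fun n => xor (par (L n) A) (Z n) := funext (hΦL A)
    rw [e]
    exact (turingReducible_xor hZc _).trans (turingReducible_par hL A)
  · have e : A = fun n => par (R n) (fun m => xor (Φ A m) (Z m)) := by
      funext n
      rw [← hRspec]
      change A n = Λ.symm (Λ A) n
      rw [Equiv.symm_apply_apply]
    have h1 := turingReducible_par hR (fun m => xor (Φ A m) (Z m))
    rw [← e] at h1
    exact h1.trans (turingReducible_xor hZc _)

end Vale.Agent.H88
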