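import Vale.Agent.H88.FinOracle

/-!
# A Baire category argument for degree-decreasing continuous maps

Let `Φ` be a map of Cantor space to itself such that every output bit depends on finitely many
input bits and such that `Φ A` is computable from `A` for every `A`.  Then there are an oracle
code `c` and a finite string `τ` such that, among the finite strings extending `τ`:
* every halting computation of `c` on a finite oracle gives the correct value of `Φ` on all
  sets extending that finite oracle (`soundness`), and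
* every finite string can be extended to one on which `c` halts (`density`).
-/

namespace Vale.Agent.H88

open Nat.Partrec (Code)

/-- The set of oracles on which the oracle code `c` computes the map `Φ`. -/
def goodSet (Φ : (ℕ → Bool) → (ℕ → Bool)) (c : OCode) : Set (ℕ → Bool) :=
  {A | ∀ n, (Φ A n).toNat ∈ c.eval (chi A) n}

theorem exists_mem_goodSet (Φ : (ℕ → Bool) → (ℕ → Bool))
    (h : ∀ A, TuringReducible (chi (Φ A)) (chi A)) (A : ℕ → Bool) :
    ∃ c : OCode, A ∈ goodSet Φ c := by
  obtain ⟨c, hc⟩ := OCode.exists_of_recursiveIn (RecursiveIn.iff_nat.mp (h A))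
  refine ⟨c, fun n => ?_⟩
  rw [hc]
  simp [chi]

theorem isOpen_agree (A : ℕ → Bool) (K : ℕ) :
    IsOpen {B : ℕ → Bool | ∀ i < K, B i = A i} := by
  have : {B : ℕ → Bool | ∀ i < K, B i = A i} =
      ⋂ i ∈ Finset.range K, (fun B : ℕ → Bool => B i) ⁻¹' {A i} := by
    ext B
    simp
  rw [this]
  exact isOpen_biInter_finset fun i _ =>
    (continuous_apply i).isOpen_preimage _ (isOpen_discrete _)

theorem exists_dense_code (Φ : (ℕ → Bool) → (ℕ → Bool))
    (h : ∀ A, TuringReducible (chi (Φ A)) (chi A)) :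
    ∃ (c : OCode) (τ : List Bool), ∀ A, Ext τ A → ∀ K,
      ∃ B ∈ goodSet Φ c, ∀ i < K, B i = A i := by
  have hU : ⋃ c : OCode, closure (goodSet Φ c) = Set.univ :=
    Set.eq_univ_of_forall fun A => by
      obtain ⟨c, hc⟩ := exists_mem_goodSet Φ h A
      exact Set.mem_iUnion.mpr ⟨c, subset_closure hc⟩
  obtain ⟨c, A₀, hA₀⟩ := nonempty_interior_of_iUnion_of_closed
    (fun c : OCode => isClosed_closure (s := goodSet Φ c)) hU
  obtain ⟨I, u, hu, hsub⟩ := isOpen_pi_iff.mp isOpen_interior A₀ hA₀
  refine ⟨c, pre A₀ (I.sup id + 1), fun A hA K => ?_⟩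
  have hA' : A ∈ closure (goodSet Φ c) := by
    apply interior_subset
    apply hsub
    intro a ha
    have ha' : a < I.sup id + 1 := Nat.lt_succ_of_le (Finset.le_sup (f := id) ha)
    have h1 := hA a (by rw [length_pre]; exact ha')
    have h2 := ext_pre A₀ (I.sup id + 1) a (by rw [length_pre]; exact ha')
    rw [h1, ← h2]
    exact (hu a ha).2
  obtain ⟨B, hB1, hB2⟩ := mem_closure_iff.mp hA' _ (isOpen_agree A K) (fun i _ => rfl)
  exact ⟨B, hB2, hB1⟩

/-- The Baire category package: a code and a finite string below which the code is sound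
and its halting computations are dense. -/
theorem baire_package (Φ : (ℕ → Bool) → (ℕ → Bool))
    (hcont : ∀ n, ∃ K, ∀ A B : ℕ → Bool, (∀ i < K, A i = B i) → Φ A n = Φ B n)
    (h : ∀ A, TuringReducible (chi (Φ A)) (chi A)) :
    ∃ (c : OCode) (τ : List Bool),
      (∀ (σ : List Bool) (k n v : ℕ), Code.evaln k (prog c (τ ++ σ)) n = some v →
        ∀ A, Ext (τ ++ σ) A → v = (Φ A n).toNat) ∧
      (∀ (σ : List Bool) (n : ℕ), ∃ (ρ : List Bool) (k v : ℕ),
        Code.evaln k (prog c (τ ++ σ ++ ρ)) n = some v) := by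
  obtain ⟨c, τ, hd⟩ := exists_dense_code Φ h
  refine ⟨c, τ, ?_, ?_⟩
  · intro σ k n v hv A hA
    have hv' : v ∈ c.eval (fo (τ ++ σ)) n := by
      rw [← eval_prog]
      exact Code.evaln_sound hv
    obtain ⟨K, hK⟩ := hcont n
    obtain ⟨B, hB, hBA⟩ := hd A hA.of_append (max K (τ ++ σ).length)
    have hextB : Ext (τ ++ σ) B := fun i hi => by
      rw [hBA i (lt_of_lt_of_le hi (le_max_right _ _))]
      exact hA i hi
    have h1 : v ∈ c.eval (chi B) n := OCode.eval_mono (fo_le_chi hextB) c hv'
    have h2 := Part.mem_unique h1 (hB n)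
    rw [h2, hK B A (fun i hi => hBA i (lt_of_lt_of_le hi (le_max_left _ _)))]
  · intro σ n
    obtain ⟨B, hB, hBA⟩ := hd (pad (τ ++ σ)) (ext_pad (τ ++ σ)).of_append (τ ++ σ).length
    have hextB : Ext (τ ++ σ) B := fun i hi => hBA i hi
    obtain ⟨S, hS⟩ := OCode.eval_use (chi B) c n _ (hB n)
    obtain ⟨ρ, hρ⟩ := pre_eq_append hextB (le_max_right (S.sup id + 1) (τ ++ σ).length)
    have h1 : (Φ B n).toNat ∈ c.eval (fo (τ ++ σ ++ ρ)) n := by
      rw [← hρ]
      apply hS
      intro i hi w hw
      exact chi_le_fo_pre B _ i (lt_of_lt_of_le (Nat.lt_succ_of_le (Finset.le_sup (f := id) hi))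
        (le_max_left _ _)) w hw
    rw [← eval_prog] at h1
    obtain ⟨k, hk⟩ := Code.evaln_complete.mp h1
    exact ⟨ρ, k, _, hk⟩

end Vale.Agent.H88
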