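import Mathlib

/-!
# Parity functionals of lists

`par l A` is `true` iff an odd number of the entries `j` of the list `l` satisfy `A j = true`.
Every continuous additive functional on Cantor space is of this form.
-/

namespace Vale.Agent.H88

/-- The parity functional of a list: `par l A` is `true` iff an odd number of entries `j`
of `l` have `A j = true`. -/
def par (l : List ℕ) (A : ℕ → Bool) : Bool := decide (Odd (l.countP A))

/-- The characteristic function of the singleton `{j}`. -/
def unit (j : ℕ) : ℕ → Bool := fun i => decide (i = j)

theorem par_nil (A : ℕ → Bool) : par [] A = false := by simp [par]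

theorem par_cons (j : ℕ) (l : List ℕ) (A : ℕ → Bool) :
    par (j :: l) A = xor (A j) (par l A) := by
  unfold par
  rw [List.countP_cons]
  cases h : A j
  · simp
  · by_cases h2 : Odd (List.countP A l)
    · have h3 : ¬ Odd (List.countP A l + 1) := by rw [Nat.odd_add_one]; exact not_not.mpr h2
      simp [h2, h3]
    · have h3 : Odd (List.countP A l + 1) := by rw [Nat.odd_add_one]; exact h2
      simp [h2, h3]

theorem par_append (l l' : List ℕ) (A : ℕ → Bool) :
    par (l ++ l') A = xor (par l A) (par l' A) := by
  induction l with
  | nil => simp [par_nil]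
  | cons j l ih => rw [List.cons_append, par_cons, par_cons, ih, Bool.xor_assoc]

theorem par_xor (l : List ℕ) (A B : ℕ → Bool) :
    par l (fun i => xor (A i) (B i)) = xor (par l A) (par l B) := by
  induction l with
  | nil => simp [par_nil]
  | cons j l ih =>
    rw [par_cons, par_cons, par_cons, ih]
    cases A j <;> cases B j <;> cases par l A <;> cases par l B <;> rfl

theorem par_congr {l : List ℕ} {A B : ℕ → Bool} (h : ∀ j ∈ l, A j = B j) :
    par l A = par l B := by
  induction l with
  | nil => simp [par_nil]
  | cons j l ih =>
    rw [par_cons, par_cons, h j (List.mem_cons_self ..),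
      ih (fun i hi => h i (List.mem_cons_of_mem _ hi))]

theorem par_false (l : List ℕ) : par l (fun _ => false) = false := by
  induction l with
  | nil => simp [par_nil]
  | cons j l ih => rw [par_cons, ih]; rfl

theorem par_flatMap (l : List ℕ) (f : ℕ → List ℕ) (A : ℕ → Bool) :
    par (l.flatMap f) A = par l (fun a => par (f a) A) := by
  induction l with
  | nil => simp [par_nil]
  | cons a l ih => rw [List.flatMap_cons, par_append, par_cons, ih]

/-- A bound for the entries of a list. -/
theorem exists_bound (l : List ℕ) : ∃ K, ∀ j ∈ l, j < K :=
  ⟨l.toFinset.sup id + 1, fun _ hj =>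
    Nat.lt_succ_of_le (Finset.le_sup (f := id) (List.mem_toFinset.mpr hj))⟩

/-- The restriction of `A` to the numbers below `K`. -/
def trunc (K : ℕ) (A : ℕ → Bool) : ℕ → Bool := fun i => decide (i < K) && A i

theorem trunc_succ (K : ℕ) (A : ℕ → Bool) :
    trunc (K + 1) A = fun i => xor (trunc K A i) (A K && unit K i) := by
  funext i
  simp only [trunc, unit]
  by_cases h1 : i < K
  · have h2 : i ≠ K := Nat.ne_of_lt h1
    have h3 : i < K + 1 := Nat.lt_succ_of_lt h1
    simp [h1, h2, h3]
  · by_cases h2 : i = K
    · subst h2
      simp
    · have h3 : ¬ i < K + 1 := by omega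
      simp [h1, h2, h3]

theorem par_trunc_succ (l : List ℕ) (K : ℕ) (A : ℕ → Bool) :
    par l (trunc (K + 1) A) = xor (par l (trunc K A)) (A K && par l (unit K)) := by
  rw [trunc_succ, par_xor]
  cases hA : A K
  · simp [par_false]
  · simp

/-- Two parity functionals that agree on all singletons are equal. -/
theorem par_ext {l l' : List ℕ} (h : ∀ j, par l (unit j) = par l' (unit j)) (A : ℕ → Bool) :
    par l A = par l' A := by
  have key : ∀ K, par l (trunc K A) = par l' (trunc K A) := by
    intro K
    induction K with
    | zero =>
      have : trunc 0 A = fun _ => false := by funext i; simp [trunc]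
      rw [this, par_false, par_false]
    | succ K ih => rw [par_trunc_succ, par_trunc_succ, ih, h K]
  obtain ⟨K, hK⟩ := exists_bound (l ++ l')
  have h1 : par l A = par l (trunc K A) :=
    par_congr fun j hj => by simp [trunc, hK j (List.mem_append_left _ hj)]
  have h2 : par l' A = par l' (trunc K A) :=
    par_congr fun j hj => by simp [trunc, hK j (List.mem_append_right _ hj)]
  rw [h1, h2, key K]

end Vale.Agent.H88
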