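import Vale.Agent.H88.BaireCode
import Vale.Agent.H88.Parity

/-!
# Degree-decreasing continuous additive maps of Cantor space are computable

Let `M : ℕ → List ℕ` be a row-finite matrix over the field with two elements, acting on
Cantor space by `A ↦ fun n => par (M n) A`.  If the image of every `A` is computable from
`A`, then the matrix is computable (`lin_computable`).
-/

namespace Vale.Agent.H88

open Nat.Partrec (Code)

section Search

variable {α Q σ : Type*} [Primcodable α] [Primcodable Q] [Primcodable σ]

/-- Unbounded search with a computable test: some function selecting, for each input,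
a value found by the test is computable. -/
theorem exists_computable_of_search {t : α → Q → Option σ} (ht : Computable₂ t)
    (hex : ∀ a, ∃ q v, t a q = some v) :
    ∃ g : α → σ, Computable g ∧ ∀ a, ∃ q, t a q = some (g a) := by
  have hf : Computable₂ (fun (a : α) (m : ℕ) => (Encodable.decode (α := Q) m).bind (t a)) :=
    Computable.option_bind (Computable.decode.comp Computable.snd)
      (ht.comp (Computable.fst.comp Computable.fst) Computable.snd)
  have hp := Partrec.rfindOpt hf
  have hdom : ∀ a, (Nat.rfindOpt fun m => (Encodable.decode (α := Q) m).bind (t a)).Dom := by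
    intro a
    obtain ⟨q, v, hqv⟩ := hex a
    exact Nat.rfindOpt_dom.mpr ⟨Encodable.encode q, v, by simp [hqv]⟩
  refine ⟨fun a => (Nat.rfindOpt fun m => (Encodable.decode (α := Q) m).bind (t a)).get
    (hdom a), hp.of_eq_tot fun a => Part.get_mem _, fun a => ?_⟩
  obtain ⟨m, hm⟩ := Nat.rfindOpt_spec (Part.get_mem (hdom a))
  simp only [Option.mem_def, Option.bind_eq_some_iff] at hm
  obtain ⟨q, _, hq⟩ := hm
  exact ⟨q, hq⟩

/-- Unbounded search with a computable test all of whose results equal `g a`. -/
theorem computable_of_search {t : α → Q → Option σ} (ht : Computable₂ t) {g : α → σ}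
    (hex : ∀ a, ∃ q v, t a q = some v) (hsound : ∀ a q v, t a q = some v → v = g a) :
    Computable g := by
  obtain ⟨g', hg', hspec⟩ := exists_computable_of_search ht hex
  refine hg'.of_eq fun a => ?_
  obtain ⟨q, hq⟩ := hspec a
  exact hsound a q _ hq

end Search

theorem primrec_cert (c : OCode) {α : Type*} [Primcodable α] {kf : α → ℕ} {sf : α → List Bool}
    {nf : α → ℕ} (hk : Primrec kf) (hs : Primrec sf) (hn : Primrec nf) :
    Primrec (fun a => Code.evaln (kf a) (prog c (sf a)) (nf a)) :=
  Code.primrec_evaln.comp ((hk.pair ((primrec_prog c).comp hs)).pair hn)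

theorem getD_mid (u w : List Bool) (b : Bool) (i : ℕ) :
    (u ++ b :: w).getD i false =
      if i < u.length then u.getD i false else if i = u.length then b
      else w.getD (i - u.length - 1) false := by
  by_cases h1 : i < u.length
  · rw [if_pos h1, List.getD_append _ _ _ _ h1]
  · rw [if_neg h1, List.getD_append_right _ _ _ _ (Nat.le_of_not_lt h1)]
    by_cases h2 : i = u.length
    · rw [if_pos h2, h2, Nat.sub_self, List.getD_cons_zero]
    · rw [if_neg h2]
      obtain ⟨m, hm⟩ : ∃ m, i - u.length = m + 1 := ⟨i - u.length - 1, by omega⟩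
      rw [hm, List.getD_cons_succ, Nat.add_sub_cancel]

/-- The test used to decide whether `τ.length + p.2` has odd multiplicity in row `p.1`. -/
noncomputable def unitTest (c : OCode) (τ : List Bool) (p : ℕ × ℕ)
    (q : ℕ × List Bool × List Bool × List Bool) : Option Bool :=
  if q.2.1.length = p.2 then
    (Code.evaln q.1 (prog c (τ ++ (q.2.1 ++ false :: q.2.2.1))) p.1).bind fun v₀ =>
      (Code.evaln q.1 (prog c (τ ++ (q.2.1 ++ true :: (q.2.2.1 ++ q.2.2.2)))) p.1).map
        fun v₁ => !(v₀ == v₁)
  else none

theorem primrec_unitTest (c : OCode) (τ : List Bool) : Primrec₂ (unitTest c τ) := by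
  unfold unitTest
  have hα : Primrec (fun x : (ℕ × ℕ) × (ℕ × List Bool × List Bool × List Bool) => x.2.2.1) :=
    Primrec.fst.comp (Primrec.snd.comp Primrec.snd)
  have hρ₀ : Primrec (fun x : (ℕ × ℕ) × (ℕ × List Bool × List Bool × List Bool) =>
      x.2.2.2.1) :=
    Primrec.fst.comp (Primrec.snd.comp (Primrec.snd.comp Primrec.snd))
  have hρ₁ : Primrec (fun x : (ℕ × ℕ) × (ℕ × List Bool × List Bool × List Bool) =>
      x.2.2.2.2) :=
    Primrec.snd.comp (Primrec.snd.comp (Primrec.snd.comp Primrec.snd))
  have hk : Primrec (fun x : (ℕ × ℕ) × (ℕ × List Bool × List Bool × List Bool) => x.2.1) :=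
    Primrec.fst.comp Primrec.snd
  have hn : Primrec (fun x : (ℕ × ℕ) × (ℕ × List Bool × List Bool × List Bool) => x.1.1) :=
    Primrec.fst.comp Primrec.fst
  have hj : Primrec (fun x : (ℕ × ℕ) × (ℕ × List Bool × List Bool × List Bool) => x.1.2) :=
    Primrec.snd.comp Primrec.fst
  have hs₀ : Primrec (fun x : (ℕ × ℕ) × (ℕ × List Bool × List Bool × List Bool) =>
      τ ++ (x.2.2.1 ++ false :: x.2.2.2.1)) :=
    Primrec.list_append.comp (Primrec.const τ)
      (Primrec.list_append.comp hα (Primrec.list_cons.comp (Primrec.const false) hρ₀))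
  have hs₁ : Primrec (fun x : (ℕ × ℕ) × (ℕ × List Bool × List Bool × List Bool) =>
      τ ++ (x.2.2.1 ++ true :: (x.2.2.2.1 ++ x.2.2.2.2))) :=
    Primrec.list_append.comp (Primrec.const τ)
      (Primrec.list_append.comp hα (Primrec.list_cons.comp (Primrec.const true)
        (Primrec.list_append.comp hρ₀ hρ₁)))
  have hc₀ := primrec_cert c hk hs₀ hn
  have hc₁ := primrec_cert c hk hs₁ hn
  refine Primrec.ite (Primrec.eq.comp (Primrec.list_length.comp hα) hj) ?_ (Primrec.const none)
  refine Primrec.option_bind hc₀ ?_
  refine Primrec.option_map (hc₁.comp Primrec.fst) ?_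
  exact Primrec.not.comp (Primrec.beq.comp (Primrec.snd.comp Primrec.fst) Primrec.snd)

/-- The test used to find a bound for the support of row `n`. -/
noncomputable def boundTest (c : OCode) (τ : List Bool) (n : ℕ) (q : ℕ × List Bool) :
    Option ℕ :=
  (Code.evaln q.1 (prog c (τ ++ q.2)) n).map fun _ => (τ ++ q.2).length

theorem primrec_boundTest (c : OCode) (τ : List Bool) : Primrec₂ (boundTest c τ) := by
  unfold boundTest
  have hs : Primrec (fun x : ℕ × (ℕ × List Bool) => τ ++ x.2.2) :=
    Primrec.list_append.comp (Primrec.const τ) (Primrec.snd.comp Primrec.snd)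
  refine Primrec.option_map (primrec_cert c (Primrec.fst.comp Primrec.snd) hs Primrec.fst) ?_
  exact (Primrec.list_length.comp (hs.comp Primrec.fst)).to₂

section Lin

variable (M : ℕ → List ℕ)

theorem par_cont (n : ℕ) :
    ∃ K, ∀ A B : ℕ → Bool, (∀ i < K, A i = B i) → par (M n) A = par (M n) B := by
  obtain ⟨K, hK⟩ := exists_bound (M n)
  exact ⟨K, fun A B h => par_congr fun j hj => h j (hK j hj)⟩

variable {M} {c : OCode} {τ : List Bool}
  (hs : ∀ (σ : List Bool) (k n v : ℕ), Code.evaln k (prog c (τ ++ σ)) n = some v →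
    ∀ A, Ext (τ ++ σ) A → v = (par (M n) A).toNat)
  (hd : ∀ (σ : List Bool) (n : ℕ), ∃ (ρ : List Bool) (k v : ℕ),
    Code.evaln k (prog c (τ ++ σ ++ ρ)) n = some v)

include hs in
theorem unitTest_sound (p : ℕ × ℕ) (q : ℕ × List Bool × List Bool × List Bool) (b : Bool)
    (h : unitTest c τ p q = some b) : b = par (M p.1) (unit (τ.length + p.2)) := by
  obtain ⟨n, j⟩ := p
  obtain ⟨k, α, ρ₀, ρ₁⟩ := q
  unfold unitTest at h
  simp only at h
  split_ifs at h with hlen
  simp only [Option.bind_eq_some_iff, Option.map_eq_some_iff] at h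
  obtain ⟨v₀, h0, v₁, h1, rfl⟩ := h
  have hX₁ := hs _ k n v₁ h1 _ (ext_pad _)
  have hX₀ : Ext (τ ++ (α ++ false :: ρ₀))
      (fun i => xor (pad (τ ++ (α ++ true :: (ρ₀ ++ ρ₁))) i) (unit (τ.length + j) i)) := by
    intro i hi
    have hl : (τ ++ α).length = τ.length + j := by rw [List.length_append, hlen]
    rw [← List.append_assoc] at hi ⊢
    rw [List.length_append, List.length_cons, hl] at hi
    simp only [pad, unit]
    rw [← List.append_assoc, getD_mid, getD_mid, hl]
    by_cases h1 : i < τ.length + j
    · have h2 : i ≠ τ.length + j := Nat.ne_of_lt h1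
      simp [h1, h2]
    · by_cases h2 : i = τ.length + j
      · simp [h2]
      · have h3 : i - (τ.length + j) - 1 < ρ₀.length := by omega
        simp [h1, h2, List.getElem?_append_left h3]
  have hX₀' := hs _ k n v₀ h0 _ hX₀
  rw [par_xor] at hX₀'
  rw [hX₀', hX₁]
  cases par (M n) (pad (τ ++ (α ++ true :: (ρ₀ ++ ρ₁)))) <;>
    cases par (M n) (unit (τ.length + j)) <;> rfl

include hd in
theorem unitTest_exists (p : ℕ × ℕ) : ∃ q b, unitTest c τ p q = some b := by
  obtain ⟨n, j⟩ := p
  obtain ⟨ρ₀, k₀, v₀, h0⟩ := hd (List.replicate j false ++ [false]) n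
  obtain ⟨ρ₁, k₁, v₁, h1⟩ := hd (List.replicate j false ++ true :: ρ₀) n
  have e0 : τ ++ (List.replicate j false ++ [false]) ++ ρ₀ =
      τ ++ (List.replicate j false ++ false :: ρ₀) := by simp
  have e1 : τ ++ (List.replicate j false ++ true :: ρ₀) ++ ρ₁ =
      τ ++ (List.replicate j false ++ true :: (ρ₀ ++ ρ₁)) := by simp
  rw [e0] at h0
  rw [e1] at h1
  have h0' := Code.evaln_mono (le_max_left k₀ k₁) h0
  have h1' := Code.evaln_mono (le_max_right k₀ k₁) h1
  refine ⟨(max k₀ k₁, List.replicate j false, ρ₀, ρ₁), !(v₀ == v₁), ?_⟩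
  unfold unitTest
  simp only [List.length_replicate, if_true]
  rw [Option.mem_def.mp h0', Option.mem_def.mp h1']
  rfl

include hs in
theorem boundTest_sound (n : ℕ) (q : ℕ × List Bool) (b : ℕ) (h : boundTest c τ n q = some b) :
    ∀ j, b ≤ j → par (M n) (unit j) = false := by
  obtain ⟨k, ρ⟩ := q
  unfold boundTest at h
  simp only [Option.map_eq_some_iff] at h
  obtain ⟨v, hv, rfl⟩ := h
  intro j hj
  have h1 := hs _ k n v hv _ (ext_pad _)
  have hX : Ext (τ ++ ρ) (fun i => xor (pad (τ ++ ρ) i) (unit j i)) := by
    intro i hi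
    have : i ≠ j := Nat.ne_of_lt (lt_of_lt_of_le hi hj)
    simp [pad, unit, this]
  have h2 := hs _ k n v hv _ hX
  rw [par_xor, h1] at h2
  revert h2
  cases par (M n) (pad (τ ++ ρ)) <;> cases par (M n) (unit j) <;> simp

include hd in
theorem boundTest_exists (n : ℕ) : ∃ q b, boundTest c τ n q = some b := by
  obtain ⟨ρ, k, v, h⟩ := hd [] n
  rw [List.append_nil] at h
  exact ⟨(k, ρ), (τ ++ ρ).length, by unfold boundTest; simp [h]⟩

end Lin

theorem computable_toNat_iff {f : ℕ → Bool} (h : Computable fun n => (f n).toNat) :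
    Computable f :=
  ((Primrec.beq.comp Primrec.id (Primrec.const 1)).to_comp.comp h).of_eq fun n => by
    cases f n <;> rfl

theorem computable_unit_small (M : ℕ → List ℕ)
    (h : ∀ A : ℕ → Bool, TuringReducible (chi (fun n => par (M n) A)) (chi A)) (j : ℕ) :
    Computable (fun n => par (M n) (unit j)) := by
  have h1 : Partrec (chi (unit j)) := by
    have : Computable (fun n : ℕ => (unit j n).toNat) :=
      ((Primrec.dom_bool Bool.toNat).comp
        (Primrec.beq.comp Primrec.id (Primrec.const j))).to_comp.of_eq fun n => by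
          by_cases hn : n = j <;> simp [unit, hn]
    exact this
  have h2 : Partrec (chi (fun n => par (M n) (unit j))) :=
    RecursiveIn.partrec_of_oracle (fun g hg => by rw [Set.mem_singleton_iff.mp hg]; exact h1)
      (h (unit j))
  exact computable_toNat_iff h2

theorem computable_unit_below (M : ℕ → List ℕ)
    (h : ∀ A : ℕ → Bool, TuringReducible (chi (fun n => par (M n) A)) (chi A)) (N : ℕ) :
    Computable (fun p : ℕ × ℕ => decide (p.2 < N) && par (M p.1) (unit p.2)) := by
  induction N with
  | zero => exact (Computable.const false).of_eq fun p => by simp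
  | succ N ih =>
    have h1 : Computable (fun p : ℕ × ℕ => p.2 == N) :=
      (Primrec.beq.comp Primrec.snd (Primrec.const N)).to_comp
    have h2 : Computable (fun p : ℕ × ℕ => par (M p.1) (unit N)) :=
      (computable_unit_small M h N).comp Computable.fst
    refine (Computable.cond h1 h2 ih).of_eq fun p => ?_
    by_cases hp : p.2 = N
    · simp [hp]
    · have h3 : (p.2 == N) = false := by simpa using hp
      have h4 : p.2 < N + 1 ↔ p.2 < N := by omega
      simp [h3, h4]

/-- The list of the `j < b n` with `f (n, j) = true`, as a computable function of `n`. -/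
theorem exists_list_of_entries {f : ℕ × ℕ → Bool} (hf : Computable f) {b : ℕ → ℕ}
    (hb : Computable b) :
    ∃ L : ℕ → List ℕ, Computable L ∧
      ∀ n j, par (L n) (unit j) = (decide (j < b n) && f (n, j)) := by
  have hstep : Computable₂ (fun (n : ℕ) (x : ℕ × List ℕ) =>
      bif f (n, x.1) then x.1 :: x.2 else x.2) :=
    Computable.cond (hf.comp (Computable.fst.pair (Computable.fst.comp Computable.snd)))
      (Computable.list_cons.comp (Computable.fst.comp Computable.snd)
        (Computable.snd.comp Computable.snd))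
      (Computable.snd.comp Computable.snd)
  have hL := Computable.nat_rec hb (Computable.const ([] : List ℕ)) hstep
  refine ⟨_, hL, fun n j => ?_⟩
  generalize b n = K
  induction K with
  | zero => simp [par_nil]
  | succ K ih =>
    have hrec : (Nat.rec (motive := fun _ => List ℕ) [] (fun y IH =>
        bif f (n, y) then y :: IH else IH) (K + 1)) =
        bif f (n, K) then K :: (Nat.rec (motive := fun _ => List ℕ) [] (fun y IH =>
        bif f (n, y) then y :: IH else IH) K) else (Nat.rec (motive := fun _ => List ℕ) []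
          (fun y IH => bif f (n, y) then y :: IH else IH) K) := rfl
    rw [hrec]
    by_cases hjK : j = K
    · subst hjK
      cases hp : f (n, j)
      · rw [cond_false, ih]
        simp
      · rw [cond_true, par_cons, ih]
        simp [unit]
    · have h4 : decide (j < K + 1) = decide (j < K) := by
        have : j < K + 1 ↔ j < K := by omega
        simp [this]
      have h5 : unit j K = false := by simp [unit, Ne.symm hjK]
      cases hp : f (n, K)
      · rw [cond_false, ih, h4]
      · rw [cond_true, par_cons, ih, h4, h5]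
        exact Bool.false_xor _

/-- A degree-decreasing row-finite matrix over the two-element field is computable. -/
theorem lin_computable (M : ℕ → List ℕ)
    (h : ∀ A : ℕ → Bool, TuringReducible (chi (fun n => par (M n) A)) (chi A)) :
    ∃ L : ℕ → List ℕ, Computable L ∧ ∀ n A, par (L n) A = par (M n) A := by
  obtain ⟨c, τ, hs, hd⟩ := baire_package (fun A n => par (M n) A) (par_cont M) h
  -- the entries of the matrix
  have hunit₁ : Computable (fun p : ℕ × ℕ => par (M p.1) (unit (τ.length + p.2))) :=
    computable_of_search (primrec_unitTest c τ).to_comp (unitTest_exists hd) (unitTest_sound hs)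
  have hunit : Computable (fun p : ℕ × ℕ => par (M p.1) (unit p.2)) := by
    have h1 : Computable (fun p : ℕ × ℕ => decide (p.2 < τ.length)) :=
      (Primrec.nat_lt.decide.comp Primrec.snd (Primrec.const τ.length)).to_comp
    have h2 : Computable (fun p : ℕ × ℕ => par (M p.1) (unit (τ.length + (p.2 - τ.length)))) :=
      hunit₁.comp (Computable.fst.pair
        ((Primrec.nat_sub.comp Primrec.snd (Primrec.const τ.length)).to_comp))
    refine (Computable.cond h1 (computable_unit_below M h τ.length) h2).of_eq fun p => ?_
    by_cases hp : p.2 < τ.length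
    · simp [hp]
    · have : τ.length + (p.2 - τ.length) = p.2 := by omega
      simp [hp, this]
  -- a bound for the rows
  obtain ⟨b, hb, hbspec⟩ := exists_computable_of_search (primrec_boundTest c τ).to_comp
    (boundTest_exists hd)
  have hb' : ∀ n j, b n ≤ j → par (M n) (unit j) = false := fun n j hj => by
    obtain ⟨q, hq⟩ := hbspec n
    exact boundTest_sound hs n q _ hq j hj
  -- the list of the entries
  obtain ⟨L, hL, hLspec⟩ := exists_list_of_entries hunit hb
  refine ⟨L, hL, fun n A => par_ext (fun j => ?_) A⟩
  rw [hLspec]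
  by_cases hj : j < b n
  · simp [hj]
  · simp [hj, hb' n j (Nat.le_of_not_lt hj)]

end Vale.Agent.H88
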