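import Vale.Agent.H88.OCode

/-!
# Finite oracles

Characteristic functions as oracles (`chi`), finite bit strings as oracles (`fo`), and the
plain code `prog c σ` obtained from an oracle code `c` by hard-wiring the finite oracle `σ`.
-/

namespace Vale.Agent.H88

open Nat.Partrec (Code)

/-- The characteristic function of `A : ℕ → Bool`, as an oracle. -/
def chi (A : ℕ → Bool) : ℕ →. ℕ := fun n => Part.some (A n).toNat

/-- The value at `i` of the finite oracle given by the list of bits `σ`. -/
def lookup (σ : List Bool) (i : ℕ) : Option ℕ := (σ[i]?).map Bool.toNat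

/-- The finite oracle given by a list of bits. -/
def fo (σ : List Bool) : ℕ →. ℕ := fun i => (lookup σ i : Part ℕ)

theorem primrec_lookup : Primrec (fun p : List Bool × ℕ => lookup p.1 p.2) := by
  unfold lookup
  exact Primrec.option_map (Primrec.list_getElem?.comp Primrec.fst Primrec.snd)
    ((Primrec.dom_bool Bool.toNat).comp Primrec.snd).to₂

theorem exists_lookupCode :
    ∃ c : Code, ∀ (σ : List Bool) (i : ℕ),
      c.eval (Nat.pair (Encodable.encode σ) i) = (lookup σ i : Part ℕ) := by
  have hp : Partrec (fun p : List Bool × ℕ => (lookup p.1 p.2 : Part ℕ)) :=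
    Computable.ofOption primrec_lookup.to_comp
  obtain ⟨c, hc⟩ := Code.exists_code.1 hp
  refine ⟨c, fun σ i => ?_⟩
  rw [hc]
  have h1 : Nat.pair (Encodable.encode σ) i = Encodable.encode (σ, i) := rfl
  rw [h1]
  simp only [Encodable.encodek, Part.coe_some, Part.bind_some]
  exact Part.map_id' (fun _ => rfl) _

/-- A code computing the lookup function of finite oracles. -/
noncomputable def lookupCode : Code := Classical.choose exists_lookupCode

theorem eval_lookupCode (σ : List Bool) (i : ℕ) :
    lookupCode.eval (Nat.pair (Encodable.encode σ) i) = (lookup σ i : Part ℕ) :=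
  Classical.choose_spec exists_lookupCode σ i

/-- A code for the finite oracle `σ`. -/
noncomputable def finCode (σ : List Bool) : Code := Code.curry lookupCode (Encodable.encode σ)

theorem eval_finCode (σ : List Bool) : (finCode σ).eval = fo σ := by
  funext i
  rw [finCode, Code.eval_curry, eval_lookupCode]
  rfl

theorem primrec_finCode : Primrec finCode :=
  Code.primrec₂_curry.comp (Primrec.const lookupCode) Primrec.encode

/-- The plain code obtained from the oracle code `c` by hard-wiring the finite oracle `σ`. -/
noncomputable def prog (c : OCode) (σ : List Bool) : Code := c.subst (finCode σ)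

theorem eval_prog (c : OCode) (σ : List Bool) : (prog c σ).eval = c.eval (fo σ) := by
  rw [prog, OCode.eval_subst, eval_finCode]

theorem primrec_prog (c : OCode) : Primrec (prog c) :=
  (OCode.primrec_subst c).comp primrec_finCode

/-- The set `A` extends the finite string `σ`. -/
def Ext (σ : List Bool) (A : ℕ → Bool) : Prop := ∀ i, i < σ.length → A i = σ.getD i false

/-- The extension of a finite string by `false`. -/
def pad (σ : List Bool) : ℕ → Bool := fun i => σ.getD i false

theorem ext_pad (σ : List Bool) : Ext σ (pad σ) := fun _ _ => rfl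

theorem Ext.of_append {σ ρ : List Bool} {A : ℕ → Bool} (h : Ext (σ ++ ρ) A) : Ext σ A := by
  intro i hi
  have := h i (by rw [List.length_append]; omega)
  rw [this, List.getD_append _ _ _ _ hi]

theorem fo_le_chi {σ : List Bool} {A : ℕ → Bool} (h : Ext σ A) :
    ∀ i w, w ∈ fo σ i → w ∈ chi A i := by
  intro i w hw
  simp only [fo, lookup, Part.mem_coe, Option.mem_def, Option.map_eq_some_iff] at hw
  obtain ⟨b, hb, rfl⟩ := hw
  have hi : i < σ.length := (List.getElem?_eq_some_iff.mp hb).1
  have h1 := h i hi
  rw [List.getD_eq_getElem?_getD, hb] at h1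
  simp [chi, h1]

/-- The prefix of `A` of length `K`. -/
def pre (A : ℕ → Bool) (K : ℕ) : List Bool := (List.range K).map A

theorem length_pre (A : ℕ → Bool) (K : ℕ) : (pre A K).length = K := by simp [pre]

theorem ext_pre (A : ℕ → Bool) (K : ℕ) : Ext (pre A K) A := by
  intro i hi
  rw [length_pre] at hi
  simp [pre, List.getD_eq_getElem?_getD, hi]

theorem chi_le_fo_pre (A : ℕ → Bool) (K i : ℕ) (hi : i < K) :
    ∀ w, w ∈ chi A i → w ∈ fo (pre A K) i := by
  intro w hw
  simp only [chi, Part.mem_some_iff] at hw
  subst hw
  simp [fo, lookup, pre, hi]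

/-- If `A` extends `σ`, then long prefixes of `A` are of the form `σ ++ ρ`. -/
theorem pre_eq_append {σ : List Bool} {A : ℕ → Bool} (h : Ext σ A) {K : ℕ}
    (hK : σ.length ≤ K) : ∃ ρ, pre A K = σ ++ ρ := by
  refine ⟨(pre A K).drop σ.length, ?_⟩
  have h1 : (pre A K).take σ.length = σ := by
    apply List.ext_getElem
    · simp [length_pre, hK]
    · intro i h1 h2
      have hi : i < σ.length := h2
      have := h i hi
      simp [pre, this, List.getD_eq_getElem?_getD, hi]
  conv_lhs => rw [← List.take_append_drop σ.length (pre A K)]
  rw [h1]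

end Vale.Agent.H88
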