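import Mathlib

/-!
# Generalized regular expressions and generalized star height

Generalized regular expressions over an alphabet `α` (with complement), the language they
denote, their star height, and closure lemmas for the predicate
`HasGSH L n` (the language `L` is denoted by some generalized regular expression of
star height at most `n`).
-/

namespace Vale.Agent.H88

universe u

/-- Generalized regular expressions over the alphabet `α`: built from the constants
`zero` (empty language), `one` (the language consisting of the empty word) and the letters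
by union, concatenation, complement and Kleene star. -/
inductive GRegex (α : Type u) : Type u
  | zero : GRegex α
  | one : GRegex α
  | char : α → GRegex α
  | plus : GRegex α → GRegex α → GRegex α
  | comp : GRegex α → GRegex α → GRegex α
  | compl : GRegex α → GRegex α
  | star : GRegex α → GRegex α

namespace GRegex

variable {α : Type u}

/-- The language denoted by a generalized regular expression; complement is taken in the set
of all words over `α`. -/
def lang : GRegex α → Language α
  | zero => 0
  | one => 1
  | char a => {[a]}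
  | plus P Q => P.lang + Q.lang
  | comp P Q => P.lang * Q.lang
  | compl P => (P.lang)ᶜ
  | star P => KStar.kstar P.lang

/-- The star height of a generalized regular expression: the maximal nesting depth of
Kleene stars (complement is free). -/
def height : GRegex α → ℕ
  | zero => 0
  | one => 0
  | char _ => 0
  | plus P Q => max P.height Q.height
  | comp P Q => max P.height Q.height
  | compl P => P.height
  | star P => P.height + 1

end GRegex

/-- `HasGSH L n`: the language `L` is denoted by some generalized regular expression of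
star height at most `n`, i.e. the generalized star height of `L` is at most `n`. -/
def HasGSH {α : Type u} (L : Language α) (n : ℕ) : Prop :=
  ∃ P : GRegex α, P.lang = L ∧ P.height ≤ n

section closure

variable {α : Type u} {n : ℕ} {L K : Language α}

theorem mem_compl_lang {x : List α} : x ∈ Lᶜ ↔ x ∉ L := Iff.rfl

theorem mem_inf_lang {x : List α} : x ∈ L ⊓ K ↔ x ∈ L ∧ x ∈ K := Iff.rfl

theorem mem_sup_lang {x : List α} : x ∈ L ⊔ K ↔ x ∈ L ∨ x ∈ K := Iff.rfl

theorem mem_iSup_lang {ι : Sort*} {f : ι → Language α} {x : List α} :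
    x ∈ (⨆ i, f i) ↔ ∃ i, x ∈ f i := Set.mem_iUnion

theorem HasGSH.mono {m : ℕ} (h : HasGSH L n) (hnm : n ≤ m) : HasGSH L m := by
  obtain ⟨P, hP, hh⟩ := h
  exact ⟨P, hP, hh.trans hnm⟩

theorem HasGSH.zero : HasGSH (0 : Language α) n := ⟨.zero, rfl, Nat.zero_le _⟩

theorem HasGSH.one : HasGSH (1 : Language α) n := ⟨.one, rfl, Nat.zero_le _⟩

theorem HasGSH.char (a : α) : HasGSH ({[a]} : Language α) n := ⟨.char a, rfl, Nat.zero_le _⟩

theorem HasGSH.add (h₁ : HasGSH L n) (h₂ : HasGSH K n) : HasGSH (L + K) n := by
  obtain ⟨P, rfl, hP⟩ := h₁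
  obtain ⟨Q, rfl, hQ⟩ := h₂
  exact ⟨.plus P Q, rfl, max_le hP hQ⟩

theorem HasGSH.mul (h₁ : HasGSH L n) (h₂ : HasGSH K n) : HasGSH (L * K) n := by
  obtain ⟨P, rfl, hP⟩ := h₁
  obtain ⟨Q, rfl, hQ⟩ := h₂
  exact ⟨.comp P Q, rfl, max_le hP hQ⟩

theorem HasGSH.compl (h : HasGSH L n) : HasGSH Lᶜ n := by
  obtain ⟨P, rfl, hP⟩ := h
  exact ⟨.compl P, rfl, hP⟩

theorem HasGSH.kstar (h : HasGSH L n) : HasGSH (KStar.kstar L) (n + 1) := by
  obtain ⟨P, rfl, hP⟩ := h
  exact ⟨.star P, rfl, Nat.succ_le_succ hP⟩

theorem HasGSH.sup (h₁ : HasGSH L n) (h₂ : HasGSH K n) : HasGSH (L ⊔ K) n := h₁.add h₂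

theorem HasGSH.inf (h₁ : HasGSH L n) (h₂ : HasGSH K n) : HasGSH (L ⊓ K) n := by
  have h := (h₁.compl.add h₂.compl).compl
  have e : (Lᶜ + Kᶜ)ᶜ = L ⊓ K := by
    ext x
    change ¬ (x ∉ L ∨ x ∉ K) ↔ x ∈ L ∧ x ∈ K
    tauto
  rwa [e] at h

theorem HasGSH.top : HasGSH (⊤ : Language α) n := by
  have h : HasGSH ((0 : Language α)ᶜ) n := HasGSH.zero.compl
  have e : ((0 : Language α)ᶜ) = ⊤ := by
    ext x
    exact ⟨fun _ => trivial, fun _ h => h⟩
  rwa [e] at h

theorem HasGSH.of_eq (h : HasGSH L n) (e : L = K) : HasGSH K n := e ▸ h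

/-- Finite unions over a finset. -/
theorem HasGSH.finset_sup {ι : Type*} (s : Finset ι) (f : ι → Language α)
    (h : ∀ i ∈ s, HasGSH (f i) n) : HasGSH (s.sup f) n := by
  classical
  induction s using Finset.induction_on with
  | empty =>
    simp only [Finset.sup_empty]
    exact HasGSH.zero
  | insert a s ha ih =>
    rw [Finset.sup_insert]
    exact (h a (Finset.mem_insert_self a s)).sup (ih fun i hi => h i (Finset.mem_insert_of_mem hi))

/-- Finite unions over a fintype. -/
theorem HasGSH.iSup {ι : Type*} [Fintype ι] (f : ι → Language α)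
    (h : ∀ i, HasGSH (f i) n) : HasGSH (⨆ i, f i) n := by
  have := HasGSH.finset_sup (n := n) Finset.univ f (fun i _ => h i)
  rwa [Finset.sup_univ_eq_iSup] at this

/-- Finite unions over a fintype, with a side condition. -/
theorem HasGSH.iSup_prop {ι : Type*} [Fintype ι] (p : ι → Prop) (f : ι → Language α)
    (h : ∀ i, p i → HasGSH (f i) n) : HasGSH (⨆ i, ⨆ (_ : p i), f i) n := by
  classical
  apply HasGSH.iSup
  intro i
  by_cases hp : p i
  · simp only [hp, iSup_pos]
    exact h i hp
  · simp only [hp, iSup_neg, not_false_eq_true]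
    exact HasGSH.zero

end closure

end Vale.Agent.H88
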