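import Vale.Agent.H88.FinOracle
import Vale.Agent.H88.Parity

/-!
# Computable matrices act by Turing reductions

If `L : ℕ → List ℕ` is computable then, for every `A`, the set `fun n => par (L n) A` is
computable from `A`.
-/

namespace Vale.Agent.H88

theorem recursiveIn_of_computable {O : Set (ℕ →. ℕ)} {f : ℕ → ℕ} (hf : Computable f) :
    Nat.RecursiveIn O (fun n => Part.some (f n)) :=
  Nat.Partrec.recursiveIn (Partrec.nat_iff.mp hf)

theorem toNat_par_concat (l : List ℕ) (x : ℕ) (A : ℕ → Bool) :
    (par (l ++ [x]) A).toNat = ((par l A).toNat + (A x).toNat) % 2 := by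
  rw [par_append, par_cons, par_nil]
  cases par l A <;> cases A x <;> rfl

theorem some_bind_chi (x : ℕ) (A : ℕ → Bool) :
    (Part.some x >>= chi A) = Part.some (A x).toNat :=
  Part.bind_some x (chi A)

theorem step_eval (v x : ℕ) (A : ℕ → Bool) :
    ((Nat.pair <$> Part.some v <*> (Part.some x >>= chi A)).bind fun z =>
      Part.some ((z.unpair.1 + z.unpair.2) % 2)) = Part.some ((v + (A x).toNat) % 2) := by
  rw [some_bind_chi]
  simp [Seq.seq]

theorem recursiveIn_par {L : ℕ → List ℕ} (hL : Computable L) (A : ℕ → Bool) :
    Nat.RecursiveIn {chi A} (chi (fun n => par (L n) A)) := by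
  -- the index of the queried bit
  have hidx : Computable (fun q : ℕ => (L q.unpair.1).getD q.unpair.2.unpair.1 0) :=
    ((Primrec.list_getD 0).to_comp).comp
      (hL.comp (Computable.fst.comp Computable.unpair))
      (Computable.fst.comp (Computable.unpair.comp (Computable.snd.comp Computable.unpair)))
  have hprj : Computable (fun q : ℕ => q.unpair.2.unpair.2) :=
    Computable.snd.comp (Computable.unpair.comp (Computable.snd.comp Computable.unpair))
  have ham2 : Computable (fun z : ℕ => (z.unpair.1 + z.unpair.2) % 2) :=
    (Primrec.nat_mod.comp (Primrec.nat_add.comp (Primrec.fst.comp Primrec.unpair)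
      (Primrec.snd.comp Primrec.unpair)) (Primrec.const 2)).to_comp
  have hlen : Computable (fun n : ℕ => Nat.pair n (L n).length) :=
    Primrec₂.natPair.to_comp.comp Computable.id (Computable.list_length.comp hL)
  have hq : Nat.RecursiveIn {chi A} (fun q : ℕ =>
      Part.some ((L q.unpair.1).getD q.unpair.2.unpair.1 0) >>= chi A) :=
    Nat.RecursiveIn.comp (Nat.RecursiveIn.oracle _ rfl) (recursiveIn_of_computable hidx)
  have hh := Nat.RecursiveIn.comp (recursiveIn_of_computable ham2)
    (Nat.RecursiveIn.pair (recursiveIn_of_computable hprj) hq)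
  have hG := Nat.RecursiveIn.prec (Nat.RecursiveIn.zero (O := {chi A})) hh
  have hF := Nat.RecursiveIn.comp hG (recursiveIn_of_computable hlen)
  refine hF.of_eq fun n => ?_
  have key : ∀ m : ℕ, (Nat.rec (motive := fun _ => Part ℕ) 0 (fun y IH =>
      IH.bind fun i => (Nat.pair <$> Part.some i <*>
        (Part.some ((L n).getD y 0) >>= chi A)).bind fun z =>
          Part.some ((z.unpair.1 + z.unpair.2) % 2)) m) =
      Part.some (par ((List.range m).map (fun y => (L n).getD y 0)) A).toNat := by
    intro m
    induction m with
    | zero => simp [par_nil]; rfl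
    | succ m ih =>
      simp only [ih]
      rw [Part.bind_some, step_eval, List.range_succ, List.map_append, List.map_singleton,
        toNat_par_concat]
  simp only [Part.bind_eq_bind, Part.bind_some, Nat.unpair_pair]
  refine (key (L n).length).trans ?_
  have : (List.range (L n).length).map (fun y => (L n).getD y 0) = L n := by
    apply List.ext_getElem
    · simp
    · intro i h1 h2
      simp [List.getD_eq_getElem?_getD, h2]
  rw [this]
  rfl

theorem turingReducible_par {L : ℕ → List ℕ} (hL : Computable L) (A : ℕ → Bool) :
    TuringReducible (chi (fun n => par (L n) A)) (chi A) :=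
  RecursiveIn.iff_nat.mpr (recursiveIn_par hL A)

end Vale.Agent.H88
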