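import Vale.Agent.H88.LinSearch
import Vale.Agent.H88.OracleLin

/-!
# Continuous additive bijections of Cantor space that respect Turing equivalence

Main result (`linear_main`): a homeomorphism of Cantor space `ℕ → Bool` that is additive for
coordinatewise `xor` and maps Turing equivalent sets to Turing equivalent sets, in both
directions, is given by a computable row-finite matrix; hence it maps every set to a Turing
equivalent set.
-/

namespace Vale.Agent.H88

/-- `flatMap` with a computable function is computable. -/
theorem computable_flatMap {α : Type*} [Primcodable α] {l : α → List ℕ} {g : α → ℕ → List ℕ}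
    (hl : Computable l) (hg : Computable₂ g) : Computable (fun a => (l a).flatMap (g a)) := by
  have hstep : Computable₂ (fun (a : α) (x : ℕ × List ℕ) =>
      x.2 ++ g a ((l a).getD x.1 0)) :=
    Computable.list_append.comp (Computable.snd.comp Computable.snd)
      (hg.comp Computable.fst (((Primrec.list_getD 0).to_comp).comp (hl.comp Computable.fst)
        (Computable.fst.comp Computable.snd)))
  have h := Computable.nat_rec (Computable.list_length.comp hl)
    (Computable.const ([] : List ℕ)) hstep
  refine h.of_eq fun a => ?_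
  have key : ∀ K, K ≤ (l a).length →
      Nat.rec (motive := fun _ => List ℕ) [] (fun y IH => IH ++ g a ((l a).getD y 0)) K =
        ((l a).take K).flatMap (g a) := by
    intro K
    induction K with
    | zero => intro _; simp
    | succ K ih =>
      intro hK
      have hK' : K < (l a).length := hK
      change Nat.rec (motive := fun _ => List ℕ) [] (fun y IH => IH ++ g a ((l a).getD y 0)) K
        ++ g a ((l a).getD K 0) = _
      rw [ih (Nat.le_of_lt hK'), List.take_add_one, List.flatMap_append]
      simp [List.getD_eq_getElem?_getD, List.getElem?_eq_getElem hK']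
  have := key (l a).length le_rfl
  rw [List.take_length] at this
  exact this

/-- A continuous additive map of Cantor space is given by a row-finite matrix. -/
theorem exists_matrix (Φ : (ℕ → Bool) → (ℕ → Bool)) (hc : Continuous Φ)
    (hadd : ∀ A B : ℕ → Bool, Φ (fun n => xor (A n) (B n)) = fun n => xor (Φ A n) (Φ B n)) :
    ∃ M : ℕ → List ℕ, ∀ A n, Φ A n = par (M n) A := by
  have h0 : Φ (fun _ => false) = fun _ => false := by
    have h := hadd (fun _ => false) (fun _ => false)
    simp only [Bool.xor_false] at h
    rw [h]
    funext n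
    simp
  have hpt : ∀ n, ∃ K, ∀ A : ℕ → Bool, (∀ i < K, A i = false) → Φ A n = false := by
    intro n
    have hopen : IsOpen ((fun A : ℕ → Bool => Φ A n) ⁻¹' {false}) :=
      ((continuous_apply n).comp hc).isOpen_preimage _ (isOpen_discrete _)
    obtain ⟨I, u, hu, hsub⟩ := isOpen_pi_iff.mp hopen (fun _ => false) (by simp [h0])
    refine ⟨I.sup id + 1, fun A hA => ?_⟩
    have hmem : A ∈ (I : Set ℕ).pi u := fun a ha => by
      rw [hA a (Nat.lt_succ_of_le (Finset.le_sup (f := id) ha))]
      exact (hu a ha).2
    exact hsub hmem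
  choose K hK using hpt
  refine ⟨fun n => (List.range (K n)).filter (fun j => Φ (unit j) n), fun A n => ?_⟩
  have hadd' : ∀ A B : ℕ → Bool, Φ (fun i => xor (A i) (B i)) n = xor (Φ A n) (Φ B n) :=
    fun A B => by rw [hadd]
  have key : ∀ m, Φ (trunc m A) n = par ((List.range m).filter (fun j => Φ (unit j) n)) A := by
    intro m
    induction m with
    | zero =>
      have : trunc 0 A = fun _ => false := by funext i; simp [trunc]
      rw [this, h0]
      simp [par_nil]
    | succ m ih =>
      rw [trunc_succ, hadd', ih, List.range_succ, List.filter_append, par_append]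
      congr 1
      cases hA : A m
      · simp only [Bool.false_and]
        rw [h0]
        by_cases hm : Φ (unit m) n = true
        · simp [hm, par_cons, par_nil, hA]
        · simp [hm, par_nil]
      · simp only [Bool.true_and]
        by_cases hm : Φ (unit m) n = true
        · simp [hm, par_cons, par_nil, hA]
        · simp [hm, par_nil]
  have hsplit : A = fun i => xor (trunc (K n) A i) (!decide (i < K n) && A i) := by
    funext i
    by_cases h : i < K n <;> simp [trunc, h]
  have h1 := hadd' (trunc (K n) A) (fun i => !decide (i < K n) && A i)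
  rw [← hsplit] at h1
  rw [h1, key, hK n (fun i => !decide (i < K n) && A i) (fun i hi => by simp [hi])]
  simp

/-- Row `n` of the matrix `P_i`: it adds bit `n + 1` to bit `n` when `n % 2 = i`. -/
def pmat (i n : ℕ) : List ℕ := if n % 2 = i then [n, n + 1] else [n]

theorem par_pmat (i n : ℕ) (X : ℕ → Bool) :
    par (pmat i n) X = if n % 2 = i then xor (X n) (X (n + 1)) else X n := by
  unfold pmat
  split_ifs <;> simp [par_cons, par_nil]

theorem primrec_pmat (i : ℕ) : Primrec (pmat i) := by
  unfold pmat
  exact Primrec.ite
    (Primrec.eq.comp (Primrec.nat_mod.comp Primrec.id (Primrec.const 2)) (Primrec.const i))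
    (Primrec.list_cons.comp Primrec.id
      (Primrec.list_cons.comp Primrec.succ (Primrec.const [])))
    (Primrec.list_cons.comp Primrec.id (Primrec.const []))

theorem pmat_invol (i : ℕ) (X : ℕ → Bool) :
    (fun n => par (pmat i n) (fun m => par (pmat i m) X)) = X := by
  funext n
  rw [par_pmat]
  split_ifs with h
  · rw [par_pmat, par_pmat, if_pos h, if_neg (by omega)]
    cases X n <;> cases X (n + 1) <;> rfl
  · rw [par_pmat, if_neg h]

theorem turingEquivalent_pmat (i : ℕ) (X : ℕ → Bool) :
    TuringEquivalent (chi (fun n => par (pmat i n) X)) (chi X) := by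
  refine ⟨turingReducible_par (primrec_pmat i).to_comp X, ?_⟩
  have h := turingReducible_par (primrec_pmat i).to_comp (fun n => par (pmat i n) X)
  rwa [pmat_invol i X] at h

/-- If a bijection of Cantor space maps Turing equivalent sets to Turing equivalent sets, then
its conjugates of the computable involutions `P_i` map every set to an equivalent set. -/
theorem conj_equiv_of_preserves (Φ : (ℕ → Bool) ≃ (ℕ → Bool))
    (hT : ∀ A B : ℕ → Bool, TuringEquivalent (chi A) (chi B) →
      TuringEquivalent (chi (Φ A)) (chi (Φ B))) (i : ℕ) (B : ℕ → Bool) :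
    TuringEquivalent (chi (Φ (fun a => par (pmat i a) (Φ.symm B)))) (chi B) := by
  have h2 := hT _ _ (turingEquivalent_pmat i (Φ.symm B))
  rwa [Equiv.apply_symm_apply] at h2

/-- If a bijection of Cantor space and its inverse are given by row-finite matrices, and the
conjugates of the computable involutions `P_i` by the bijection are degree-decreasing, then
the inverse is given by a computable matrix. -/
theorem inverse_computable (Φ : (ℕ → Bool) ≃ (ℕ → Bool)) (M M' : ℕ → List ℕ)
    (hM : ∀ A n, Φ A n = par (M n) A) (hM' : ∀ B n, Φ.symm B n = par (M' n) B)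
    (hΘ : ∀ (i : ℕ) (B : ℕ → Bool),
      TuringReducible (chi (Φ (fun a => par (pmat i a) (Φ.symm B)))) (chi B)) :
    ∃ R : ℕ → List ℕ, Computable R ∧ ∀ B n, Φ.symm B n = par (R n) B := by
  -- the conjugates of the two computable involutions are computable
  have hΘ : ∀ i, ∃ Q : ℕ → List ℕ, Computable Q ∧
      ∀ B n, par (Q n) B = Φ (fun a => par (pmat i a) (Φ.symm B)) n := by
    intro i
    have h1 : ∀ B, (fun n => par (((M n).flatMap (pmat i)).flatMap M') B) =
        Φ (fun a => par (pmat i a) (Φ.symm B)) := by
      intro B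
      funext n
      rw [par_flatMap, par_flatMap, hM]
      congr 1
      funext a
      congr 1
      funext b
      rw [hM']
    obtain ⟨Q, hQ, hQspec⟩ := lin_computable (fun n => ((M n).flatMap (pmat i)).flatMap M')
      (fun B => by
        rw [h1]
        exact hΘ i B)
    exact ⟨Q, hQ, fun B n => by rw [hQspec, ← h1]⟩
  obtain ⟨Q₀, hQ₀, hQ₀spec⟩ := hΘ 0
  obtain ⟨Q₁, hQ₁, hQ₁spec⟩ := hΘ 1
  have hrel : ∀ (i : ℕ) (Q : ℕ → List ℕ),
      (∀ B n, par (Q n) B = Φ (fun a => par (pmat i a) (Φ.symm B)) n) →
      ∀ B y, y % 2 = i →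
        Φ.symm B (y + 1) = xor (Φ.symm B y) (Φ.symm (fun m => par (Q m) B) y) := by
    intro i Q hQ B y hy
    have h1 : (fun m => par (Q m) B) = Φ (fun a => par (pmat i a) (Φ.symm B)) := funext (hQ B)
    rw [h1, Equiv.symm_apply_apply, par_pmat, if_pos hy]
    cases Φ.symm B y <;> cases Φ.symm B (y + 1) <;> rfl
  have hQf : Computable₂ (fun (y m : ℕ) => bif y % 2 == 0 then Q₀ m else Q₁ m) :=
    Computable.cond
      ((Primrec.beq.comp (Primrec.nat_mod.comp Primrec.fst (Primrec.const 2))
        (Primrec.const 0)).to_comp)
      (hQ₀.comp Computable.snd) (hQ₁.comp Computable.snd)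
  have hstep : Computable₂ (fun (_ : ℕ) (x : ℕ × List ℕ) =>
      x.2 ++ x.2.flatMap (fun m => bif x.1 % 2 == 0 then Q₀ m else Q₁ m)) :=
    Computable.list_append.comp (Computable.snd.comp Computable.snd)
      (computable_flatMap (Computable.snd.comp Computable.snd)
        (hQf.comp (Computable.fst.comp (Computable.snd.comp Computable.fst)) Computable.snd))
  obtain ⟨R, hR, hR0, hRsucc⟩ : ∃ R : ℕ → List ℕ, Computable R ∧ R 0 = M' 0 ∧
      ∀ y, R (y + 1) = R y ++ (R y).flatMap (fun m => bif y % 2 == 0 then Q₀ m else Q₁ m) :=
    ⟨_, Computable.nat_rec Computable.id (Computable.const (M' 0)) hstep, rfl, fun _ => rfl⟩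
  refine ⟨R, hR, ?_⟩
  intro B n
  induction n generalizing B with
  | zero => rw [hR0]; exact hM' B 0
  | succ y ih =>
    rw [hRsucc, par_append, par_flatMap, ← ih B, ← ih]
    rcases Nat.mod_two_eq_zero_or_one y with h | h
    · have e : (fun a => par (bif y % 2 == 0 then Q₀ a else Q₁ a) B) =
          fun m => par (Q₀ m) B := by
        funext a
        simp [h]
      rw [e]
      exact hrel 0 Q₀ hQ₀spec B y h
    · have e : (fun a => par (bif y % 2 == 0 then Q₀ a else Q₁ a) B) =
          fun m => par (Q₁ m) B := by
        funext a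
        simp [h]
      rw [e]
      exact hrel 1 Q₁ hQ₁spec B y h

/-- Main theorem: a homeomorphism of Cantor space that is additive for coordinatewise `xor`
and preserves Turing equivalence in both directions is given by a computable matrix, and maps
every set to a Turing equivalent set. -/
theorem linear_main (Φ : (ℕ → Bool) ≃ₜ (ℕ → Bool))
    (hadd : ∀ A B : ℕ → Bool, Φ (fun n => xor (A n) (B n)) = fun n => xor (Φ A n) (Φ B n))
    (hT : ∀ A B : ℕ → Bool, TuringEquivalent (chi A) (chi B) ↔
      TuringEquivalent (chi (Φ A)) (chi (Φ B))) :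
    (∃ L : ℕ → List ℕ, Computable L ∧ ∀ A n, Φ A n = par (L n) A) ∧
      ∀ A : ℕ → Bool, TuringEquivalent (chi (Φ A)) (chi A) := by
  have hadd' : ∀ A B : ℕ → Bool,
      Φ.symm (fun n => xor (A n) (B n)) = fun n => xor (Φ.symm A n) (Φ.symm B n) := by
    intro A B
    rw [Homeomorph.symm_apply_eq, hadd, Homeomorph.apply_symm_apply,
      Homeomorph.apply_symm_apply]
  obtain ⟨M, hM⟩ := exists_matrix Φ Φ.continuous hadd
  obtain ⟨M', hM'⟩ := exists_matrix Φ.symm Φ.symm.continuous hadd'
  obtain ⟨R, hR, hRspec⟩ := inverse_computable Φ.toEquiv M M' hM hM' (fun i B =>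
    (conj_equiv_of_preserves Φ.toEquiv (fun A B h => (hT A B).mp h) i B).1)
  obtain ⟨L, hL, hLspec⟩ := inverse_computable Φ.toEquiv.symm M' M hM' hM (fun i B =>
    (conj_equiv_of_preserves Φ.toEquiv.symm (fun A B h => by
      refine (hT _ _).mpr ?_
      have e1 : Φ (Φ.toEquiv.symm A) = A := Φ.apply_symm_apply A
      have e2 : Φ (Φ.toEquiv.symm B) = B := Φ.apply_symm_apply B
      rw [e1, e2]
      exact h) i B).1)
  have hLspec' : ∀ A n, Φ A n = par (L n) A := hLspec
  have hRspec' : ∀ B n, Φ.symm B n = par (R n) B := hRspec
  refine ⟨⟨L, hL, hLspec'⟩, fun A => ⟨?_, ?_⟩⟩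
  · have h1 : Φ A = fun n => par (L n) A := funext (hLspec' A)
    rw [h1]
    exact turingReducible_par hL A
  · have h1 : A = fun n => par (R n) (Φ A) := by
      funext n
      rw [← hRspec', Homeomorph.symm_apply_apply]
    have h2 := turingReducible_par hR (Φ A)
    rw [← h1] at h2
    exact h2

end Vale.Agent.H88
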