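import Mathlib

/-!
# Codes for oracle programs

`OCode` is a type of codes for the functions recursive in one oracle: `OCode.eval g c` is the
function computed by the code `c` with oracle `g`.  The constructors mirror those of
`Nat.RecursiveIn`, so every function recursive in `g` is `OCode.eval g c` for some `c`.

Main facts: finite use (`OCode.eval_use`), monotonicity in the oracle (`OCode.eval_mono`), and
substitution of a code for the oracle (`OCode.subst`, `OCode.eval_subst`,
`OCode.primrec_subst`).
-/

namespace Vale.Agent.H88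

open Nat.Partrec (Code)

/-- Codes for programs with one oracle. -/
inductive OCode : Type
  | zero : OCode
  | succ : OCode
  | left : OCode
  | right : OCode
  | oracle : OCode
  | pair : OCode → OCode → OCode
  | comp : OCode → OCode → OCode
  | prec : OCode → OCode → OCode
  | rfind : OCode → OCode
  deriving Countable

namespace OCode

/-- The function computed by a code relative to the oracle `g`. -/
def eval (g : ℕ →. ℕ) : OCode → ℕ →. ℕ
  | zero => fun _ => 0
  | succ => Nat.succ
  | left => fun n => (Nat.unpair n).1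
  | right => fun n => (Nat.unpair n).2
  | oracle => g
  | pair a b => fun n => Nat.pair <$> eval g a n <*> eval g b n
  | comp a b => fun n => eval g b n >>= eval g a
  | prec a b => fun p =>
      let (x, n) := Nat.unpair p
      n.rec (eval g a x) fun y IH => do
        let i ← IH
        eval g b (Nat.pair x (Nat.pair y i))
  | rfind a => fun x => Nat.rfind fun n => (fun m => m = 0) <$> eval g a (Nat.pair x n)

theorem exists_of_recursiveIn {g f : ℕ →. ℕ} (h : Nat.RecursiveIn {g} f) :
    ∃ c : OCode, c.eval g = f := by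
  induction h with
  | zero => exact ⟨.zero, rfl⟩
  | succ => exact ⟨.succ, rfl⟩
  | left => exact ⟨.left, rfl⟩
  | right => exact ⟨.right, rfl⟩
  | oracle g' hg' =>
    rw [Set.mem_singleton_iff] at hg'
    subst hg'
    exact ⟨.oracle, rfl⟩
  | pair _ _ ih₁ ih₂ =>
    obtain ⟨a, rfl⟩ := ih₁
    obtain ⟨b, rfl⟩ := ih₂
    exact ⟨.pair a b, rfl⟩
  | comp _ _ ih₁ ih₂ =>
    obtain ⟨a, rfl⟩ := ih₁
    obtain ⟨b, rfl⟩ := ih₂
    exact ⟨.comp a b, rfl⟩
  | prec _ _ ih₁ ih₂ =>
    obtain ⟨a, rfl⟩ := ih₁
    obtain ⟨b, rfl⟩ := ih₂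
    exact ⟨.prec a b, rfl⟩
  | rfind _ ih =>
    obtain ⟨a, rfl⟩ := ih
    exact ⟨.rfind a, rfl⟩

theorem eval_use (g : ℕ →. ℕ) (c : OCode) : ∀ n v, v ∈ c.eval g n →
    ∃ S : Finset ℕ, ∀ g' : ℕ →. ℕ, (∀ i ∈ S, ∀ w, w ∈ g i → w ∈ g' i) → v ∈ c.eval g' n := by
  induction c with
  | zero => intro n v hv; exact ⟨∅, fun g' _ => hv⟩
  | succ => intro n v hv; exact ⟨∅, fun g' _ => hv⟩
  | left => intro n v hv; exact ⟨∅, fun g' _ => hv⟩
  | right => intro n v hv; exact ⟨∅, fun g' _ => hv⟩
  | oracle =>
    intro n v hv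
    exact ⟨{n}, fun g' h => h n (Finset.mem_singleton_self n) v hv⟩
  | pair a b iha ihb =>
    intro n v hv
    simp only [eval, Part.map_eq_map, Seq.seq, Part.mem_bind_iff,
      Part.mem_map_iff] at hv
    obtain ⟨_, ⟨x, hx, rfl⟩, y, hy, rfl⟩ := hv
    obtain ⟨S₁, h₁⟩ := iha n x hx
    obtain ⟨S₂, h₂⟩ := ihb n y hy
    refine ⟨S₁ ∪ S₂, fun g' h => ?_⟩
    simp only [eval, Part.map_eq_map, Seq.seq, Part.mem_bind_iff,
      Part.mem_map_iff]
    exact ⟨_, ⟨x, h₁ g' (fun i hi => h i (Finset.mem_union_left _ hi)), rfl⟩, y,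
      h₂ g' (fun i hi => h i (Finset.mem_union_right _ hi)), rfl⟩
  | comp a b iha ihb =>
    intro n v hv
    obtain ⟨y, hy, hv⟩ := Part.mem_bind_iff.mp
      (show v ∈ Part.bind (eval g b n) (eval g a) from hv)
    obtain ⟨S₁, h₁⟩ := ihb n y hy
    obtain ⟨S₂, h₂⟩ := iha y v hv
    refine ⟨S₁ ∪ S₂, fun g' h => ?_⟩
    refine (Part.mem_bind_iff (f := eval g' b n) (g := eval g' a)).mpr ?_
    exact ⟨y, h₁ g' (fun i hi => h i (Finset.mem_union_left _ hi)),
      h₂ g' (fun i hi => h i (Finset.mem_union_right _ hi))⟩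
  | prec a b iha ihb =>
    intro p v hv
    have aux : ∀ (x m v : ℕ),
        v ∈ (Nat.rec (eval g a x) (fun y IH => IH >>= fun i =>
          eval g b (Nat.pair x (Nat.pair y i))) m : Part ℕ) →
        ∃ S : Finset ℕ, ∀ g' : ℕ →. ℕ, (∀ i ∈ S, ∀ w, w ∈ g i → w ∈ g' i) →
          v ∈ (Nat.rec (eval g' a x) (fun y IH => IH >>= fun i =>
            eval g' b (Nat.pair x (Nat.pair y i))) m : Part ℕ) := by
      intro x m
      induction m with
      | zero => intro v hv; exact iha x v hv
      | succ m ihm =>
        intro v hv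
        obtain ⟨i, hi, hv⟩ := Part.mem_bind_iff.mp
          (show v ∈ Part.bind (Nat.rec (eval g a x) (fun y IH => IH >>= fun i =>
            eval g b (Nat.pair x (Nat.pair y i))) m : Part ℕ)
              (fun i => eval g b (Nat.pair x (Nat.pair m i))) from hv)
        obtain ⟨S₁, h₁⟩ := ihm i hi
        obtain ⟨S₂, h₂⟩ := ihb _ v hv
        refine ⟨S₁ ∪ S₂, fun g' h => ?_⟩
        refine (Part.mem_bind_iff (f := (Nat.rec (eval g' a x) (fun y IH => IH >>= fun i =>
          eval g' b (Nat.pair x (Nat.pair y i))) m : Part ℕ))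
            (g := fun i => eval g' b (Nat.pair x (Nat.pair m i)))).mpr ?_
        exact ⟨i, h₁ g' (fun i hi => h i (Finset.mem_union_left _ hi)),
          h₂ g' (fun i hi => h i (Finset.mem_union_right _ hi))⟩
    exact aux (Nat.unpair p).1 (Nat.unpair p).2 v hv
  | rfind a iha =>
    intro x v hv
    obtain ⟨hv1, hv2⟩ := Nat.mem_rfind.mp (show v ∈ Nat.rfind (fun n =>
      (fun m => decide (m = 0)) <$> eval g a (Nat.pair x n)) from hv)
    have key : ∀ k, ∃ S : Finset ℕ, k ≤ v → ∀ g' : ℕ →. ℕ,
        (∀ i ∈ S, ∀ w, w ∈ g i → w ∈ g' i) →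
        decide (k = v) ∈ (fun m => decide (m = 0)) <$> eval g' a (Nat.pair x k) := by
      intro k
      by_cases hk : k ≤ v
      · rcases Nat.lt_or_eq_of_le hk with hlt | rfl
        · have h2 := hv2 hlt
          simp only [Part.map_eq_map, Part.mem_map_iff] at h2
          obtain ⟨w, hw, hw0⟩ := h2
          obtain ⟨S, hS⟩ := iha _ w hw
          refine ⟨S, fun _ g' h => ?_⟩
          simp only [Part.map_eq_map, Part.mem_map_iff]
          refine ⟨w, hS g' h, ?_⟩
          rw [hw0]
          simp [Nat.ne_of_lt hlt]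
        · simp only [Part.map_eq_map, Part.mem_map_iff] at hv1
          obtain ⟨w, hw, hw0⟩ := hv1
          obtain ⟨S, hS⟩ := iha _ w hw
          refine ⟨S, fun _ g' h => ?_⟩
          simp only [Part.map_eq_map, Part.mem_map_iff]
          refine ⟨w, hS g' h, ?_⟩
          rw [hw0]
          simp
      · exact ⟨∅, fun h => absurd h hk⟩
    choose Sf hSf using key
    refine ⟨(Finset.range (v + 1)).biUnion Sf, fun g' h => ?_⟩
    refine (Nat.mem_rfind (p := fun n => (fun m => decide (m = 0)) <$>
      eval g' a (Nat.pair x n))).mpr ⟨?_, ?_⟩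
    · have := hSf v le_rfl g' (fun i hi => h i (Finset.mem_biUnion.mpr
        ⟨v, Finset.mem_range.mpr (Nat.lt_succ_self v), hi⟩))
      simpa using this
    · intro m hm
      have := hSf m (Nat.le_of_lt hm) g' (fun i hi => h i (Finset.mem_biUnion.mpr
        ⟨m, Finset.mem_range.mpr (Nat.lt_succ_of_lt hm), hi⟩))
      simpa [Nat.ne_of_lt hm] using this

theorem eval_mono {g g' : ℕ →. ℕ} (h : ∀ i w, w ∈ g i → w ∈ g' i) (c : OCode) {n v : ℕ}
    (hv : v ∈ c.eval g n) : v ∈ c.eval g' n := by
  obtain ⟨S, hS⟩ := eval_use g c n v hv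
  exact hS g' (fun i _ => h i)

/-- Replace the oracle of an oracle code by a (plain) code. -/
def subst : OCode → Code → Code
  | zero, _ => Code.zero
  | succ, _ => Code.succ
  | left, _ => Code.left
  | right, _ => Code.right
  | oracle, d => d
  | pair a b, d => Code.pair (subst a d) (subst b d)
  | comp a b, d => Code.comp (subst a d) (subst b d)
  | prec a b, d => Code.prec (subst a d) (subst b d)
  | rfind a, d => Code.comp (Code.rfind' (subst a d)) (Code.pair Code.id Code.zero)

theorem eval_subst (c : OCode) (d : Code) : (c.subst d).eval = c.eval d.eval := by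
  induction c with
  | zero => rfl
  | succ => rfl
  | left => rfl
  | right => rfl
  | oracle => rfl
  | pair a b iha ihb =>
    simp only [subst, eval, Code.eval, iha, ihb]
    rfl
  | comp a b iha ihb =>
    simp only [subst, eval, Code.eval, iha, ihb]
    rfl
  | prec a b iha ihb =>
    funext p
    simp only [subst, eval, Code.eval, iha, ihb, Nat.unpaired]
  | rfind a iha =>
    funext x
    simp only [subst, eval, Code.eval, iha, Seq.seq, Code.eval_id,
      Part.map_eq_map, Part.bind_eq_bind, Part.bind_some, Part.map_some]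
    rw [show (pure 0 : ℕ →. ℕ) x = Part.some 0 from rfl, Part.map_some, Part.bind_some]
    simp only [Nat.unpaired, Nat.unpair_pair, Nat.add_zero]
    exact Part.map_id' (fun _ => rfl) _

theorem primrec_subst (c : OCode) : Primrec (fun d : Code => c.subst d) := by
  induction c with
  | zero => exact Primrec.const _
  | succ => exact Primrec.const _
  | left => exact Primrec.const _
  | right => exact Primrec.const _
  | oracle => exact Primrec.id
  | pair a b iha ihb => exact Code.primrec₂_pair.comp iha ihb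
  | comp a b iha ihb => exact Code.primrec₂_comp.comp iha ihb
  | prec a b iha ihb => exact Code.primrec₂_prec.comp iha ihb
  | rfind a iha =>
    exact Code.primrec₂_comp.comp (Code.primrec_rfind'.comp iha) (Primrec.const _)

end OCode

end Vale.Agent.H88
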