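import Vale.Agent.H88.GSH
import Mathlib.Computability.MyhillNerode

/-!
# Quotients of star-free languages

Left and right quotients of a star-free language by a word are star-free, a star-free language
has finitely many left (right) quotients, and hence finitely many classes for its left and right
congruences, each of them star-free.
-/

namespace Vale.Agent.H88

open Language

universe u

variable {α : Type u}

section reverse

theorem reverse_compl_lang (L : Language α) : (Lᶜ).reverse = (L.reverse)ᶜ := rfl

theorem reverse_single_lang (a : α) : ({[a]} : Language α).reverse = {[a]} := by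
  ext w
  change w.reverse = [a] ↔ w = [a]
  constructor
  · intro h
    have := congrArg List.reverse h
    simpa using this
  · intro h
    subst h
    rfl

theorem GRegex.exists_reverse : ∀ e : GRegex α, ∃ e' : GRegex α,
    e'.lang = e.lang.reverse ∧ e'.height = e.height
  | .zero => ⟨.zero, rfl, rfl⟩
  | .one => ⟨.one, (Language.reverse_one).symm, rfl⟩
  | .char a => ⟨.char a, (reverse_single_lang a).symm, rfl⟩
  | .plus e f => by
    obtain ⟨e', he, hh⟩ := GRegex.exists_reverse e
    obtain ⟨f', hf, hh'⟩ := GRegex.exists_reverse f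
    refine ⟨.plus e' f', ?_, ?_⟩
    · change e'.lang + f'.lang = (e.lang + f.lang).reverse
      rw [he, hf, Language.reverse_add]
    · change max e'.height f'.height = max e.height f.height
      rw [hh, hh']
  | .comp e f => by
    obtain ⟨e', he, hh⟩ := GRegex.exists_reverse e
    obtain ⟨f', hf, hh'⟩ := GRegex.exists_reverse f
    refine ⟨.comp f' e', ?_, ?_⟩
    · change f'.lang * e'.lang = (e.lang * f.lang).reverse
      rw [he, hf, Language.reverse_mul]
    · change max f'.height e'.height = max e.height f.height
      rw [hh, hh', max_comm]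
  | .compl e => by
    obtain ⟨e', he, hh⟩ := GRegex.exists_reverse e
    refine ⟨.compl e', ?_, hh⟩
    change (e'.lang)ᶜ = ((e.lang)ᶜ).reverse
    rw [he, reverse_compl_lang]
  | .star e => by
    obtain ⟨e', he, hh⟩ := GRegex.exists_reverse e
    refine ⟨.star e', ?_, ?_⟩
    · change KStar.kstar e'.lang = (KStar.kstar e.lang).reverse
      rw [he, Language.reverse_kstar]
    · change e'.height + 1 = e.height + 1
      rw [hh]

theorem HasGSH.reverse {L : Language α} {n : ℕ} (h : HasGSH L n) : HasGSH L.reverse n := by
  obtain ⟨e, rfl, hh⟩ := h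
  obtain ⟨e', he, hh'⟩ := GRegex.exists_reverse e
  exact ⟨e', he, hh' ▸ hh⟩

end reverse

section leftq

theorem leftQuotient_zero (x : List α) : (0 : Language α).leftQuotient x = 0 := rfl

theorem leftQuotient_add (L M : Language α) (x : List α) :
    (L + M).leftQuotient x = L.leftQuotient x + M.leftQuotient x := rfl

theorem leftQuotient_compl (L : Language α) (x : List α) :
    (Lᶜ).leftQuotient x = (L.leftQuotient x)ᶜ := rfl

/-- The part of the left quotient of a product `L * M` by `x` coming from factorizations that
split inside `x`. -/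
def splitLang (L M : Language α) (x : List α) : Language α :=
  {y | ∃ p s, x = p ++ s ∧ p ∈ L ∧ y ∈ M.leftQuotient s}

/-- Left quotient of a product by a word. -/
theorem leftQuotient_mul (L M : Language α) (x : List α) :
    (L * M).leftQuotient x = L.leftQuotient x * M + splitLang L M x := by
  ext y
  rw [Language.mem_add, Language.mem_leftQuotient, Language.mem_mul, Language.mem_mul]
  constructor
  · rintro ⟨p, hp, s', hs', h⟩
    rcases List.append_eq_append_iff.1 h with ⟨a', h1, h2⟩ | ⟨c', h1, h2⟩
    · right
      exact ⟨p, a', h1, hp, by rw [Language.mem_leftQuotient, ← h2]; exact hs'⟩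
    · left
      refine ⟨c', ?_, s', hs', h2.symm⟩
      rw [Language.mem_leftQuotient, ← h1]
      exact hp
  · rintro (⟨c', hc', s', hs', rfl⟩ | ⟨p, s, rfl, hp, hy⟩)
    · exact ⟨x ++ c', hc', s', hs', by simp⟩
    · exact ⟨p, hp, s ++ y, hy, by simp⟩

theorem leftQuotient_mul_letter (L M : Language α) (a : α) [Decidable ([] ∈ L)] :
    (L * M).leftQuotient [a] = L.leftQuotient [a] * M +
      (if [] ∈ L then M.leftQuotient [a] else 0) := by
  ext y
  rw [Language.mem_add, Language.mem_leftQuotient, Language.mem_mul, Language.mem_mul]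
  constructor
  · rintro ⟨p, hp, s', hs', h⟩
    cases p with
    | nil =>
      right
      rw [if_pos hp]
      simp only [List.nil_append] at h
      rw [Language.mem_leftQuotient, ← h]
      exact hs'
    | cons b p' =>
      left
      simp only [List.cons_append, List.nil_append, List.cons.injEq] at h
      obtain ⟨rfl, rfl⟩ := h
      exact ⟨p', hp, s', hs', rfl⟩
  · rintro (⟨c', hc', s', hs', rfl⟩ | hy)
    · exact ⟨[a] ++ c', hc', s', hs', by simp⟩
    · by_cases hnil : [] ∈ L
      · rw [if_pos hnil] at hy
        exact ⟨[], hnil, [a] ++ y, hy, by simp⟩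
      · rw [if_neg hnil] at hy
        exact absurd hy (Language.notMem_zero y)

theorem GRegex.exists_leftQuotient_letter (a : α) : ∀ e : GRegex α, e.height = 0 →
    ∃ e' : GRegex α, e'.lang = e.lang.leftQuotient [a] ∧ e'.height = 0
  | .zero, _ => ⟨.zero, rfl, rfl⟩
  | .one, _ => by
    refine ⟨.zero, ?_, rfl⟩
    ext y
    change y ∈ (0 : Language α) ↔ [a] ++ y ∈ (1 : Language α)
    rw [Language.mem_one]
    simp [Language.notMem_zero]
  | .char b, _ => by
    classical
    by_cases hab : a = b
    · refine ⟨.one, ?_, rfl⟩
      ext y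
      change y ∈ (1 : Language α) ↔ [a] ++ y = [b]
      rw [Language.mem_one]
      simp [hab]
    · refine ⟨.zero, ?_, rfl⟩
      ext y
      change y ∈ (0 : Language α) ↔ [a] ++ y = [b]
      simp [Language.notMem_zero, hab]
  | .plus e f, h => by
    have h1 : e.height = 0 := Nat.eq_zero_of_le_zero (h ▸ le_max_left e.height f.height)
    have h2 : f.height = 0 := Nat.eq_zero_of_le_zero (h ▸ le_max_right e.height f.height)
    obtain ⟨e', he, hh⟩ := GRegex.exists_leftQuotient_letter a e h1
    obtain ⟨f', hf, hh'⟩ := GRegex.exists_leftQuotient_letter a f h2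
    refine ⟨.plus e' f', ?_, ?_⟩
    · change e'.lang + f'.lang = (e.lang + f.lang).leftQuotient [a]
      rw [he, hf, leftQuotient_add]
    · change max e'.height f'.height = 0
      rw [hh, hh']
      rfl
  | .comp e f, h => by
    classical
    have h1 : e.height = 0 := Nat.eq_zero_of_le_zero (h ▸ le_max_left e.height f.height)
    have h2 : f.height = 0 := Nat.eq_zero_of_le_zero (h ▸ le_max_right e.height f.height)
    obtain ⟨e', he, hh⟩ := GRegex.exists_leftQuotient_letter a e h1
    obtain ⟨f', hf, hh'⟩ := GRegex.exists_leftQuotient_letter a f h2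
    have key := leftQuotient_mul_letter e.lang f.lang a
    by_cases hnil : [] ∈ e.lang
    · refine ⟨.plus (.comp e' f) f', ?_, ?_⟩
      · change e'.lang * f.lang + f'.lang = (e.lang * f.lang).leftQuotient [a]
        rw [key, if_pos hnil, he, hf]
      · change max (max e'.height f.height) f'.height = 0
        rw [hh, hh', h2]
        rfl
    · refine ⟨.comp e' f, ?_, ?_⟩
      · change e'.lang * f.lang = (e.lang * f.lang).leftQuotient [a]
        rw [key, if_neg hnil, he, add_zero]
      · change max e'.height f.height = 0
        rw [hh, h2]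
        rfl
  | .compl e, h => by
    obtain ⟨e', he, hh⟩ := GRegex.exists_leftQuotient_letter a e h
    refine ⟨.compl e', ?_, hh⟩
    change (e'.lang)ᶜ = ((e.lang)ᶜ).leftQuotient [a]
    rw [he, leftQuotient_compl]
  | .star e, h => by
    exact absurd h (Nat.succ_ne_zero _)

/-- Left quotients by words preserve star-freeness. -/
theorem HasGSH.leftQuotient {L : Language α} (h : HasGSH L 0) (x : List α) :
    HasGSH (L.leftQuotient x) 0 := by
  induction x generalizing L with
  | nil => exact h
  | cons a x ih =>
    have heq : L.leftQuotient (a :: x) = (L.leftQuotient [a]).leftQuotient x := by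
      rw [← Language.leftQuotient_append]
      rfl
    rw [heq]
    apply ih
    obtain ⟨e, rfl, hh⟩ := h
    obtain ⟨e', he, hh'⟩ := GRegex.exists_leftQuotient_letter a e (Nat.eq_zero_of_le_zero hh)
    exact ⟨e', he, hh'.le⟩

/-- The right quotient of a language by a word. -/
def rquot (L : Language α) (x : List α) : Language α := {y | y ++ x ∈ L}

theorem mem_rquot {L : Language α} {x y : List α} :
    y ∈ rquot L x ↔ y ++ x ∈ L := Iff.rfl

theorem rquot_eq_reverse (L : Language α) (x : List α) :
    rquot L x = (L.reverse.leftQuotient x.reverse).reverse := by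
  ext y
  rw [mem_rquot, Language.mem_reverse, Language.mem_leftQuotient, Language.mem_reverse,
    List.reverse_append, List.reverse_reverse, List.reverse_reverse]

/-- Right quotients by words preserve star-freeness. -/
theorem HasGSH.rquot {L : Language α} (h : HasGSH L 0) (x : List α) :
    HasGSH (Vale.Agent.H88.rquot L x) 0 := by
  rw [rquot_eq_reverse]
  exact (h.reverse.leftQuotient x.reverse).reverse

end leftq

section finite

/-- The union of a set of languages. -/
def unionLang (S : Set (Language α)) : Language α := {y | ∃ T ∈ S, y ∈ T}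

theorem GRegex.finite_range_leftQuotient : ∀ e : GRegex α, e.height = 0 →
    (Set.range e.lang.leftQuotient).Finite
  | .zero, _ => by
    apply (Set.finite_singleton (0 : Language α)).subset
    rintro _ ⟨x, rfl⟩
    rfl
  | .one, _ => by
    apply (Set.toFinite ({0, 1} : Set (Language α))).subset
    rintro _ ⟨x, rfl⟩
    cases x with
    | nil => right; rfl
    | cons a x =>
      left
      ext y
      change (a :: x) ++ y ∈ (1 : Language α) ↔ y ∈ (0 : Language α)
      rw [Language.mem_one]
      simp [Language.notMem_zero]
  | .char b, _ => by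
    apply (Set.toFinite ({0, 1, {[b]}} : Set (Language α))).subset
    rintro _ ⟨x, rfl⟩
    cases x with
    | nil => right; right; rfl
    | cons a x =>
      cases x with
      | nil =>
        by_cases hab : a = b
        · right; left
          ext y
          change [a] ++ y = [b] ↔ y ∈ (1 : Language α)
          rw [Language.mem_one]
          simp [hab]
        · left
          ext y
          change [a] ++ y = [b] ↔ y ∈ (0 : Language α)
          simp [Language.notMem_zero, hab]
      | cons c x =>
        left
        ext y
        change (a :: c :: x) ++ y = [b] ↔ y ∈ (0 : Language α)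
        simp [Language.notMem_zero]
  | .plus e f, h => by
    have h1 : e.height = 0 := Nat.eq_zero_of_le_zero (h ▸ le_max_left e.height f.height)
    have h2 : f.height = 0 := Nat.eq_zero_of_le_zero (h ▸ le_max_right e.height f.height)
    have f1 := GRegex.finite_range_leftQuotient e h1
    have f2 := GRegex.finite_range_leftQuotient f h2
    apply (Set.Finite.image2 (fun A B : Language α => A + B) f1 f2).subset
    rintro _ ⟨x, rfl⟩
    exact ⟨_, ⟨x, rfl⟩, _, ⟨x, rfl⟩, rfl⟩
  | .comp e f, h => by
    have h1 : e.height = 0 := Nat.eq_zero_of_le_zero (h ▸ le_max_left e.height f.height)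
    have h2 : f.height = 0 := Nat.eq_zero_of_le_zero (h ▸ le_max_right e.height f.height)
    have f1 := GRegex.finite_range_leftQuotient e h1
    have f2 := GRegex.finite_range_leftQuotient f h2
    have f3 : {S : Set (Language α) | S ⊆ Set.range f.lang.leftQuotient}.Finite := f2.finite_subsets
    apply (Set.Finite.image2
      (fun (A : Language α) (S : Set (Language α)) =>
        A * f.lang + unionLang S) f1 f3).subset
    rintro _ ⟨x, rfl⟩
    refine ⟨_, ⟨x, rfl⟩, {T | ∃ p s, x = p ++ s ∧ p ∈ e.lang ∧ T = f.lang.leftQuotient s}, ?_, ?_⟩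
    · rintro T ⟨p, s, -, -, rfl⟩
      exact ⟨s, rfl⟩
    · change e.lang.leftQuotient x * f.lang + _ = (e.lang * f.lang).leftQuotient x
      rw [leftQuotient_mul]
      congr 1
      ext y
      constructor
      · rintro ⟨T, ⟨p, s, hx, hp, rfl⟩, hy⟩
        exact ⟨p, s, hx, hp, hy⟩
      · rintro ⟨p, s, hx, hp, hy⟩
        exact ⟨_, ⟨p, s, hx, hp, rfl⟩, hy⟩
  | .compl e, h => by
    have f1 := GRegex.finite_range_leftQuotient e h
    apply (f1.image (fun A : Language α => Aᶜ)).subset
    rintro _ ⟨x, rfl⟩
    exact ⟨_, ⟨x, rfl⟩, rfl⟩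
  | .star e, h => by
    exact absurd h (Nat.succ_ne_zero _)

/-- A star-free language has finitely many left quotients. -/
theorem HasGSH.finite_range_leftQuotient {L : Language α} (h : HasGSH L 0) :
    (Set.range L.leftQuotient).Finite := by
  obtain ⟨e, rfl, hh⟩ := h
  exact GRegex.finite_range_leftQuotient e (Nat.eq_zero_of_le_zero hh)

/-- A star-free language has finitely many right quotients. -/
theorem HasGSH.finite_range_rquot {L : Language α} (h : HasGSH L 0) :
    (Set.range (Vale.Agent.H88.rquot L)).Finite := by
  apply ((h.reverse.finite_range_leftQuotient).image Language.reverse).subset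
  rintro _ ⟨x, rfl⟩
  exact ⟨_, ⟨x.reverse, rfl⟩, (rquot_eq_reverse L x).symm⟩

end finite

section atoms

/-- The atom of `u` with respect to a family `𝒬` of languages: the words lying in exactly the
same members of `𝒬` as `u`. -/
def atom (𝒬 : Set (Language α)) (u : List α) : Language α := {w | ∀ T ∈ 𝒬, w ∈ T ↔ u ∈ T}

/-- The words lying in exactly those members of `𝒬` that belong to `S`. -/
def sigLang (𝒬 S : Set (Language α)) : Language α := {w | ∀ T ∈ 𝒬, w ∈ T ↔ T ∈ S}

theorem mem_finset_sup_lang {ι : Type*} (s : Finset ι) (f : ι → Language α) (x : List α) :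
    x ∈ s.sup f ↔ ∃ i ∈ s, x ∈ f i := by
  classical
  induction s using Finset.induction_on with
  | empty =>
    simp only [Finset.sup_empty, Finset.notMem_empty, false_and, exists_false, iff_false]
    exact fun h => h
  | insert a s ha ih =>
    rw [Finset.sup_insert, mem_sup_lang, ih]
    simp

theorem hasGSH_atom {𝒬 : Set (Language α)} (hfin : 𝒬.Finite) (hsf : ∀ T ∈ 𝒬, HasGSH T 0)
    (u : List α) : HasGSH (atom 𝒬 u) 0 := by
  classical
  have h1 : HasGSH (hfin.toFinset.sup (fun T => if u ∈ T then Tᶜ else T)) 0 := by
    apply HasGSH.finset_sup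
    intro T hT
    have := hsf T (hfin.mem_toFinset.1 hT)
    by_cases hu : u ∈ T
    · rw [if_pos hu]; exact this.compl
    · rw [if_neg hu]; exact this
  refine h1.compl.of_eq ?_
  ext w
  rw [mem_compl_lang, mem_finset_sup_lang]
  constructor
  · intro hw T hT
    by_contra hcon
    apply hw
    refine ⟨T, hfin.mem_toFinset.2 hT, ?_⟩
    by_cases hu : u ∈ T
    · rw [if_pos hu]
      intro hwT
      exact hcon ⟨fun _ => hu, fun _ => hwT⟩
    · rw [if_neg hu]
      by_contra hwT
      exact hcon ⟨fun h => absurd h hwT, fun h => absurd h hu⟩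
  · rintro hw ⟨T, hT, hx⟩
    have hT' := hfin.mem_toFinset.1 hT
    by_cases hu : u ∈ T
    · rw [if_pos hu] at hx
      exact hx ((hw T hT').2 hu)
    · rw [if_neg hu] at hx
      exact hu ((hw T hT').1 hx)

theorem finite_range_atom {𝒬 : Set (Language α)} (hfin : 𝒬.Finite) :
    (Set.range (atom 𝒬)).Finite := by
  apply ((hfin.finite_subsets).image (sigLang 𝒬)).subset
  rintro _ ⟨u, rfl⟩
  refine ⟨{T | T ∈ 𝒬 ∧ u ∈ T}, fun T hT => hT.1, ?_⟩
  ext w
  constructor
  · intro hw T hT
    rw [hw T hT]
    exact ⟨fun h => h.2, fun h => ⟨hT, h⟩⟩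
  · intro hw T hT
    rw [hw T hT]
    exact ⟨fun h => ⟨hT, h⟩, fun h => h.2⟩

end atoms

section classes

/-- The class of `u` for the right congruence of `K`: the words `w` such that
`w ++ x ∈ K ↔ u ++ x ∈ K` for all `x`. -/
def rclass (K : Language α) (u : List α) : Language α := {w | ∀ x, w ++ x ∈ K ↔ u ++ x ∈ K}

/-- The class of `v` for the left congruence of `K`: the words `w` such that
`x ++ w ∈ K ↔ x ++ v ∈ K` for all `x`. -/
def lclass (K : Language α) (v : List α) : Language α := {w | ∀ x, x ++ w ∈ K ↔ x ++ v ∈ K}

theorem rclass_eq_atom (K : Language α) (u : List α) :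
    rclass K u = atom (Set.range (rquot K)) u := by
  ext w
  constructor
  · rintro hw _ ⟨x, rfl⟩
    exact hw x
  · intro hw x
    exact hw _ ⟨x, rfl⟩

theorem lclass_eq_atom (K : Language α) (v : List α) :
    lclass K v = atom (Set.range K.leftQuotient) v := by
  ext w
  constructor
  · rintro hw _ ⟨x, rfl⟩
    exact hw x
  · intro hw x
    exact hw _ ⟨x, rfl⟩

theorem hasGSH_rclass {K : Language α} (h : HasGSH K 0) (u : List α) :
    HasGSH (rclass K u) 0 := by
  rw [rclass_eq_atom]
  apply hasGSH_atom h.finite_range_rquot
  rintro _ ⟨x, rfl⟩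
  exact h.rquot x

theorem hasGSH_lclass {K : Language α} (h : HasGSH K 0) (v : List α) :
    HasGSH (lclass K v) 0 := by
  rw [lclass_eq_atom]
  apply hasGSH_atom h.finite_range_leftQuotient
  rintro _ ⟨x, rfl⟩
  exact h.leftQuotient x

theorem finite_range_rclass {K : Language α} (h : HasGSH K 0) :
    (Set.range (rclass K)).Finite := by
  have e : rclass K = atom (Set.range (rquot K)) := funext (rclass_eq_atom K)
  rw [e]
  exact finite_range_atom h.finite_range_rquot

theorem finite_range_lclass {K : Language α} (h : HasGSH K 0) :
    (Set.range (lclass K)).Finite := by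
  have e : lclass K = atom (Set.range K.leftQuotient) := funext (lclass_eq_atom K)
  rw [e]
  exact finite_range_atom h.finite_range_leftQuotient

theorem mem_rclass_self (K : Language α) (u : List α) : u ∈ rclass K u := fun _ => Iff.rfl

theorem mem_lclass_self (K : Language α) (v : List α) : v ∈ lclass K v := fun _ => Iff.rfl

theorem rclass_eq_of_mem {K : Language α} {u w : List α} (h : w ∈ rclass K u) :
    rclass K w = rclass K u := by
  ext z
  constructor
  · intro hz x
    rw [hz x, h x]
  · intro hz x
    rw [hz x, h x]

theorem lclass_eq_of_mem {K : Language α} {v w : List α} (h : w ∈ lclass K v) :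
    lclass K w = lclass K v := by
  ext z
  constructor
  · intro hz x
    rw [hz x, h x]
  · intro hz x
    rw [hz x, h x]

theorem rclass_le {K : Language α} {u : List α} (hu : u ∈ K) : rclass K u ≤ K := by
  intro w hw
  have h2 : w ++ [] ∈ K := (hw []).2 (by simpa using hu)
  rw [List.append_nil] at h2
  exact h2

theorem lclass_le {K : Language α} {v : List α} (hv : v ∈ K) : lclass K v ≤ K := by
  intro w hw
  have h2 : [] ++ w ∈ K := (hw []).2 (by simpa using hv)
  rw [List.nil_append] at h2
  exact h2

theorem rclass_congr (K : Language α) (u : List α) (a : List α) (ha : a ∈ rclass K u)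
    (b : List α) (hb : b ∈ rclass K u) (x : List α) :
    a ++ x ∈ rclass K u ↔ b ++ x ∈ rclass K u := by
  have key : ∀ y, (a ++ x) ++ y ∈ K ↔ (b ++ x) ++ y ∈ K := by
    intro y
    rw [List.append_assoc, List.append_assoc, ha (x ++ y), hb (x ++ y)]
  constructor
  · intro h y
    rw [← key y, h y]
  · intro h y
    rw [key y, h y]

theorem lclass_congr (K : Language α) (v : List α) (a : List α) (ha : a ∈ lclass K v)
    (b : List α) (hb : b ∈ lclass K v) (x : List α) :
    x ++ a ∈ lclass K v ↔ x ++ b ∈ lclass K v := by
  have key : ∀ y, y ++ (x ++ a) ∈ K ↔ y ++ (x ++ b) ∈ K := by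
    intro y
    rw [← List.append_assoc, ← List.append_assoc, ha (y ++ x), hb (y ++ x)]
  constructor
  · intro h y
    rw [← key y, h y]
  · intro h y
    rw [key y, h y]

end classes

end Vale.Agent.H88
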