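import Vale.Agent.H88.GSH

/-!
# The one-state-removal criterion for generalized star height at most one
-/

namespace Vale.Agent.H88

open Language

universe u v

section letters

variable {α : Type u}

/-- Words all of whose letters lie in `B`. -/
def lettersLang (B : Set α) : Language α := {w | ∀ a ∈ w, a ∈ B}

theorem lettersLang_compl_eq (B : Set α) :
    (lettersLang B)ᶜ = (⊤ : Language α) * (⨆ a, ⨆ (_ : a ∉ B), ({[a]} : Language α)) * ⊤ := by
  ext w
  rw [mem_compl_lang]
  constructor
  · intro h
    have h' : ∃ a ∈ w, a ∉ B := by
      by_contra hcon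
      apply h
      intro a ha
      by_contra hb
      exact hcon ⟨a, ha, hb⟩
    obtain ⟨a, ha, hb⟩ := h'
    obtain ⟨s, t, rfl⟩ := List.append_of_mem ha
    rw [Language.mem_mul]
    refine ⟨s ++ [a], ?_, t, trivial, by simp⟩
    rw [Language.mem_mul]
    refine ⟨s, trivial, [a], ?_, rfl⟩
    rw [Language.mem_iSup]
    refine ⟨a, ?_⟩
    rw [Language.mem_iSup]
    exact ⟨hb, rfl⟩
  · intro h hw
    rw [Language.mem_mul] at h
    obtain ⟨x, hx, t, -, rfl⟩ := h
    rw [Language.mem_mul] at hx
    obtain ⟨s, -, y, hy, rfl⟩ := hx
    rw [Language.mem_iSup] at hy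
    obtain ⟨a, hy⟩ := hy
    rw [Language.mem_iSup] at hy
    obtain ⟨hb, hy⟩ := hy
    have hy' : y = [a] := hy
    subst hy'
    exact hb (hw a (by simp))

theorem hasGSH_lettersLang [Fintype α] (B : Set α) (n : ℕ) : HasGSH (lettersLang B) n := by
  have h1 : HasGSH ((⊤ : Language α) * (⨆ a, ⨆ (_ : a ∉ B), ({[a]} : Language α)) * ⊤) n :=
    (HasGSH.top.mul (HasGSH.iSup_prop _ _ fun a _ => HasGSH.char a)).mul HasGSH.top
  rw [← lettersLang_compl_eq] at h1
  have h2 := h1.compl
  rwa [Language.compl_compl] at h2

end letters

section paths

variable {α : Type u} {σ : Type v}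

/-- Words leading from state `s` to state `t` under the transition function `δ`. -/
def pathLang (δ : σ → α → σ) (s t : σ) : Language α := {w | w.foldl δ s = t}

theorem mem_pathLang {δ : σ → α → σ} {s t : σ} {w : List α} :
    w ∈ pathLang δ s t ↔ w.foldl δ s = t := Iff.rfl

theorem foldl_of_mem_lettersLang (δ : σ → α → σ) (p : σ) :
    ∀ u : List α, u ∈ lettersLang {a | δ p a = p} → u.foldl δ p = p := by
  intro u
  induction u with
  | nil => intro _; rfl
  | cons a u ih =>
    intro h
    have ha : δ p a = p := h a (by simp)
    rw [List.foldl_cons, ha]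
    exact ih fun b hb => h b (by simp [hb])

/-- Unfolding of the path language at a state `p`: first read self-loop letters, then either
stop (if `p = t`) or leave `p` for good through a letter `a` with `δ p a ≠ p`. -/
theorem pathLang_eq_unfold (δ : σ → α → σ) (p t : σ) :
    pathLang δ p t = lettersLang {a | δ p a = p} *
      ((⨆ (_ : p = t), (1 : Language α)) +
        ⨆ a, ⨆ (_ : δ p a ≠ p), ({[a]} : Language α) * pathLang δ (δ p a) t) := by
  ext w
  constructor
  · intro hw
    induction w with
    | nil =>
      have hpt : p = t := hw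
      rw [Language.mem_mul]
      refine ⟨[], fun a ha => by simp at ha, [], ?_, rfl⟩
      rw [Language.mem_add]
      left
      rw [Language.mem_iSup]
      exact ⟨hpt, rfl⟩
    | cons a w ih =>
      by_cases ha : δ p a = p
      · have hw' : w ∈ pathLang δ p t := by
          have : (a :: w).foldl δ p = t := hw
          rw [List.foldl_cons, ha] at this
          exact this
        have h := ih hw'
        rw [Language.mem_mul] at h ⊢
        obtain ⟨u, hu, x, hx, rfl⟩ := h
        refine ⟨a :: u, ?_, x, hx, rfl⟩
        intro b hb
        rcases List.mem_cons.1 hb with rfl | hb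
        · exact ha
        · exact hu b hb
      · rw [Language.mem_mul]
        refine ⟨[], fun b hb => by simp at hb, a :: w, ?_, rfl⟩
        rw [Language.mem_add]
        right
        rw [Language.mem_iSup]
        refine ⟨a, ?_⟩
        rw [Language.mem_iSup]
        refine ⟨ha, ?_⟩
        rw [Language.mem_mul]
        exact ⟨[a], rfl, w, hw, rfl⟩
  · intro hw
    rw [Language.mem_mul] at hw
    obtain ⟨u, hu, x, hx, rfl⟩ := hw
    have hu' := foldl_of_mem_lettersLang δ p u hu
    rw [mem_pathLang, List.foldl_append, hu']
    rw [Language.mem_add] at hx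
    rcases hx with hx | hx
    · rw [Language.mem_iSup] at hx
      obtain ⟨hpt, hx⟩ := hx
      have : x = [] := hx
      subst this
      exact hpt
    · rw [Language.mem_iSup] at hx
      obtain ⟨a, hx⟩ := hx
      rw [Language.mem_iSup] at hx
      obtain ⟨-, hx⟩ := hx
      rw [Language.mem_mul] at hx
      obtain ⟨y, hy, v, hv, rfl⟩ := hx
      have : y = [a] := hy
      subst this
      exact hv

/-- In a partially ordered automaton (every transition is a self-loop or strictly increases
the rank), all path languages are star-free. -/
theorem hasGSH_pathLang_of_po [Fintype α] [Fintype σ] (δ : σ → α → σ) (rk : σ → ℕ)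
    (hpo : ∀ p a, δ p a = p ∨ rk p < rk (δ p a)) (n : ℕ) :
    ∀ p t, HasGSH (pathLang δ p t) n := by
  classical
  obtain ⟨R, hR⟩ : ∃ R, ∀ p, rk p < R :=
    ⟨Finset.univ.sup rk + 1, fun p => Nat.lt_succ_of_le (Finset.le_sup (Finset.mem_univ p))⟩
  have key : ∀ k p, R ≤ rk p + k → ∀ t, HasGSH (pathLang δ p t) n := by
    intro k
    induction k with
    | zero =>
      intro p hp
      exact absurd (hR p) (by omega)
    | succ k ih =>
      intro p hp t
      rw [pathLang_eq_unfold]
      refine (hasGSH_lettersLang _ n).mul (HasGSH.add ?_ ?_)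
      · by_cases hpt : p = t
        · simp only [hpt, iSup_pos]
          exact HasGSH.one
        · simp only [hpt, iSup_neg, not_false_eq_true]
          exact HasGSH.zero
      · refine HasGSH.iSup_prop _ _ fun a ha => (HasGSH.char a).mul (ih _ ?_ t)
        rcases hpo p a with h | h
        · exact absurd h ha
        · omega
  intro p t
  exact key R p (by omega) t

end paths

section main

variable {α : Type u} {σ : Type v} [DecidableEq σ]

/-- The transition function obtained by turning the state `q` into a sink. -/
def sinkStep (δ : σ → α → σ) (q : σ) : σ → α → σ := fun p a => if p = q then q else δ p a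

theorem sinkStep_foldl_sink (δ : σ → α → σ) (q : σ) (w : List α) :
    w.foldl (sinkStep δ q) q = q := by
  induction w with
  | nil => rfl
  | cons a w ih =>
    rw [List.foldl_cons]
    have : sinkStep δ q q a = q := by simp [sinkStep]
    rw [this]
    exact ih

theorem sinkStep_of_ne (δ : σ → α → σ) (q : σ) {p : σ} (hp : p ≠ q) (a : α) :
    sinkStep δ q p a = δ p a := by
  simp [sinkStep, hp]

theorem foldl_eq_of_sinkStep_ne (δ : σ → α → σ) (q : σ) :
    ∀ (w : List α) (p : σ), w.foldl (sinkStep δ q) p ≠ q →
      w.foldl (sinkStep δ q) p = w.foldl δ p := by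
  intro w
  induction w with
  | nil => intro p _; rfl
  | cons a w ih =>
    intro p h
    rw [List.foldl_cons] at h ⊢
    by_cases hp : p = q
    · subst hp
      have : sinkStep δ p p a = p := by simp [sinkStep]
      rw [this] at h
      exact absurd (sinkStep_foldl_sink δ p w) h
    · rw [sinkStep_of_ne δ q hp] at h ⊢
      rw [List.foldl_cons]
      exact ih _ h

/-- First-hit decomposition: a path from `s ≠ q` to `t` either avoids `q` altogether, or
reaches `q` for the first time after a `q`-avoiding path to some `p'` and a letter `b`
with `δ p' b = q`, and then continues from `q`. -/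
theorem pathLang_first_hit (δ : σ → α → σ) (q : σ) (t : σ) :
    ∀ s, s ≠ q → pathLang δ s t =
      (⨆ (_ : t ≠ q), pathLang (sinkStep δ q) s t) +
        ⨆ p', ⨆ b, ⨆ (_ : p' ≠ q ∧ δ p' b = q),
          pathLang (sinkStep δ q) s p' * ({[b]} : Language α) * pathLang δ q t := by
  intro s hs
  ext w
  constructor
  · intro hw
    induction w generalizing s with
    | nil =>
      have hst : s = t := hw
      rw [Language.mem_add]
      left
      rw [Language.mem_iSup]
      exact ⟨hst ▸ hs, hst⟩
    | cons a w ih =>
      have hw' : w.foldl δ (δ s a) = t := hw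
      by_cases hq : δ s a = q
      · rw [Language.mem_add]
        right
        rw [Language.mem_iSup]
        refine ⟨s, ?_⟩
        rw [Language.mem_iSup]
        refine ⟨a, ?_⟩
        rw [Language.mem_iSup]
        refine ⟨⟨hs, hq⟩, ?_⟩
        rw [Language.mem_mul]
        refine ⟨[a], ?_, w, ?_, rfl⟩
        · rw [Language.mem_mul]
          exact ⟨[], rfl, [a], rfl, rfl⟩
        · rw [hq] at hw'
          exact hw'
      · have h := ih (δ s a) hq hw'
        rw [Language.mem_add] at h ⊢
        rcases h with h | h
        · left
          rw [Language.mem_iSup] at h ⊢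
          obtain ⟨htq, h⟩ := h
          refine ⟨htq, ?_⟩
          rw [mem_pathLang] at h ⊢
          rw [List.foldl_cons, sinkStep_of_ne δ q hs]
          exact h
        · right
          rw [Language.mem_iSup] at h ⊢
          obtain ⟨p', h⟩ := h
          refine ⟨p', ?_⟩
          rw [Language.mem_iSup] at h ⊢
          obtain ⟨b, h⟩ := h
          refine ⟨b, ?_⟩
          rw [Language.mem_iSup] at h ⊢
          obtain ⟨hc, h⟩ := h
          refine ⟨hc, ?_⟩
          rw [Language.mem_mul] at h ⊢
          obtain ⟨x, hx, v, hv, rfl⟩ := h
          rw [Language.mem_mul] at hx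
          obtain ⟨u, hu, y, hy, rfl⟩ := hx
          refine ⟨a :: u ++ y, ?_, v, hv, by simp⟩
          rw [Language.mem_mul]
          refine ⟨a :: u, ?_, y, hy, rfl⟩
          rw [mem_pathLang] at hu ⊢
          rw [List.foldl_cons, sinkStep_of_ne δ q hs]
          exact hu
  · intro hw
    rw [Language.mem_add] at hw
    rcases hw with hw | hw
    · rw [Language.mem_iSup] at hw
      obtain ⟨htq, hw⟩ := hw
      rw [mem_pathLang] at hw ⊢
      rw [← foldl_eq_of_sinkStep_ne δ q w s (by rw [hw]; exact htq)]
      exact hw
    · rw [Language.mem_iSup] at hw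
      obtain ⟨p', hw⟩ := hw
      rw [Language.mem_iSup] at hw
      obtain ⟨b, hw⟩ := hw
      rw [Language.mem_iSup] at hw
      obtain ⟨⟨hp', hb⟩, hw⟩ := hw
      rw [Language.mem_mul] at hw
      obtain ⟨x, hx, v, hv, rfl⟩ := hw
      rw [Language.mem_mul] at hx
      obtain ⟨u, hu, y, hy, rfl⟩ := hx
      have hy' : y = [b] := hy
      subst hy'
      rw [mem_pathLang] at hu hv ⊢
      have hu2 : u.foldl δ s = p' := by
        rw [← foldl_eq_of_sinkStep_ne δ q u s (by rw [hu]; exact hp')]
        exact hu
      rw [List.foldl_append, List.foldl_append, hu2, List.foldl_cons, List.foldl_nil, hb]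
      exact hv

/-- The first-return code at `q`: the words leading from `q` back to `q` without visiting `q`
in between. -/
def returnCode (δ : σ → α → σ) (q : σ) : Language α :=
  (⨆ a, ⨆ (_ : δ q a = q), ({[a]} : Language α)) +
    ⨆ a, ⨆ p', ⨆ b, ⨆ (_ : δ q a ≠ q ∧ p' ≠ q ∧ δ p' b = q),
      ({[a]} : Language α) * pathLang (sinkStep δ q) (δ q a) p' * ({[b]} : Language α)

/-- The departure language from `q` to `t`: words leading from `q` to `t` that never come back
to `q` (the empty word if `t = q`). -/
def departLang (δ : σ → α → σ) (q t : σ) : Language α :=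
  (⨆ (_ : t = q), (1 : Language α)) +
    ⨆ a, ⨆ (_ : δ q a ≠ q ∧ t ≠ q), ({[a]} : Language α) * pathLang (sinkStep δ q) (δ q a) t

theorem nil_notMem_returnCode (δ : σ → α → σ) (q : σ) : [] ∉ returnCode (α := α) δ q := by
  intro h
  rw [returnCode, Language.mem_add] at h
  rcases h with h | h
  · rw [Language.mem_iSup] at h
    obtain ⟨a, h⟩ := h
    rw [Language.mem_iSup] at h
    obtain ⟨-, h⟩ := h
    have : ([] : List α) = [a] := h
    simp at this
  · rw [Language.mem_iSup] at h
    obtain ⟨a, h⟩ := h
    rw [Language.mem_iSup] at h
    obtain ⟨p', h⟩ := h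
    rw [Language.mem_iSup] at h
    obtain ⟨b, h⟩ := h
    rw [Language.mem_iSup] at h
    obtain ⟨-, h⟩ := h
    rw [Language.mem_mul] at h
    obtain ⟨x, -, y, hy, hxy⟩ := h
    have : y = [b] := hy
    subst this
    simp at hxy

theorem pathLang_return_eq (δ : σ → α → σ) (q t : σ) :
    pathLang δ q t = returnCode δ q * pathLang δ q t + departLang δ q t := by
  ext w
  constructor
  · intro hw
    cases w with
    | nil =>
      have hqt : q = t := hw
      rw [Language.mem_add]
      right
      rw [departLang, Language.mem_add]
      left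
      rw [Language.mem_iSup]
      exact ⟨hqt.symm, rfl⟩
    | cons a w =>
      have hw' : w.foldl δ (δ q a) = t := hw
      by_cases hq : δ q a = q
      · rw [Language.mem_add]
        left
        rw [Language.mem_mul]
        refine ⟨[a], ?_, w, ?_, rfl⟩
        · rw [returnCode, Language.mem_add]
          left
          rw [Language.mem_iSup]
          refine ⟨a, ?_⟩
          rw [Language.mem_iSup]
          exact ⟨hq, rfl⟩
        · rw [hq] at hw'
          exact hw'
      · have h : w ∈ pathLang δ (δ q a) t := hw'
        rw [pathLang_first_hit δ q t (δ q a) hq, Language.mem_add] at h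
        rcases h with h | h
        · rw [Language.mem_iSup] at h
          obtain ⟨htq, h⟩ := h
          rw [Language.mem_add]
          right
          rw [departLang, Language.mem_add]
          right
          rw [Language.mem_iSup]
          refine ⟨a, ?_⟩
          rw [Language.mem_iSup]
          refine ⟨⟨hq, htq⟩, ?_⟩
          rw [Language.mem_mul]
          exact ⟨[a], rfl, w, h, rfl⟩
        · rw [Language.mem_iSup] at h
          obtain ⟨p', h⟩ := h
          rw [Language.mem_iSup] at h
          obtain ⟨b, h⟩ := h
          rw [Language.mem_iSup] at h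
          obtain ⟨⟨hp', hb⟩, h⟩ := h
          rw [Language.mem_mul] at h
          obtain ⟨x, hx, v, hv, rfl⟩ := h
          rw [Language.mem_mul] at hx
          obtain ⟨u, hu, y, hy, rfl⟩ := hx
          rw [Language.mem_add]
          left
          rw [Language.mem_mul]
          refine ⟨a :: u ++ y, ?_, v, hv, by simp⟩
          rw [returnCode, Language.mem_add]
          right
          rw [Language.mem_iSup]
          refine ⟨a, ?_⟩
          rw [Language.mem_iSup]
          refine ⟨p', ?_⟩
          rw [Language.mem_iSup]
          refine ⟨b, ?_⟩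
          rw [Language.mem_iSup]
          refine ⟨⟨hq, hp', hb⟩, ?_⟩
          rw [Language.mem_mul]
          refine ⟨a :: u, ?_, y, hy, rfl⟩
          rw [Language.mem_mul]
          exact ⟨[a], rfl, u, hu, rfl⟩
  · intro hw
    rw [Language.mem_add] at hw
    rcases hw with hw | hw
    · rw [Language.mem_mul] at hw
      obtain ⟨x, hx, v, hv, rfl⟩ := hw
      rw [mem_pathLang] at hv ⊢
      rw [returnCode, Language.mem_add] at hx
      rcases hx with hx | hx
      · rw [Language.mem_iSup] at hx
        obtain ⟨a, hx⟩ := hx
        rw [Language.mem_iSup] at hx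
        obtain ⟨ha, hx⟩ := hx
        have : x = [a] := hx
        subst this
        rw [List.foldl_append, List.foldl_cons, List.foldl_nil, ha]
        exact hv
      · rw [Language.mem_iSup] at hx
        obtain ⟨a, hx⟩ := hx
        rw [Language.mem_iSup] at hx
        obtain ⟨p', hx⟩ := hx
        rw [Language.mem_iSup] at hx
        obtain ⟨b, hx⟩ := hx
        rw [Language.mem_iSup] at hx
        obtain ⟨⟨hq, hp', hb⟩, hx⟩ := hx
        rw [Language.mem_mul] at hx
        obtain ⟨y, hy, z, hz, rfl⟩ := hx
        rw [Language.mem_mul] at hy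
        obtain ⟨a', ha', u, hu, rfl⟩ := hy
        have e1 : a' = [a] := ha'
        have e2 : z = [b] := hz
        subst e1 e2
        rw [mem_pathLang] at hu
        have hu2 : u.foldl δ (δ q a) = p' := by
          rw [← foldl_eq_of_sinkStep_ne δ q u (δ q a) (by rw [hu]; exact hp')]
          exact hu
        simp only [List.foldl_append, List.foldl_cons, List.foldl_nil]
        rw [hu2, hb]
        exact hv
    · rw [departLang, Language.mem_add] at hw
      rcases hw with hw | hw
      · rw [Language.mem_iSup] at hw
        obtain ⟨htq, hw⟩ := hw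
        have : w = [] := hw
        subst this
        exact htq.symm
      · rw [Language.mem_iSup] at hw
        obtain ⟨a, hw⟩ := hw
        rw [Language.mem_iSup] at hw
        obtain ⟨⟨hq, htq⟩, hw⟩ := hw
        rw [Language.mem_mul] at hw
        obtain ⟨a', ha', u, hu, rfl⟩ := hw
        have e1 : a' = [a] := ha'
        subst e1
        rw [mem_pathLang] at hu ⊢
        rw [List.foldl_append, List.foldl_cons, List.foldl_nil,
          ← foldl_eq_of_sinkStep_ne δ q u (δ q a) (by rw [hu]; exact htq)]
        exact hu

theorem pathLang_eq_kstar (δ : σ → α → σ) (q t : σ) :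
    pathLang δ q t = KStar.kstar (returnCode δ q) * departLang δ q t :=
  (Language.self_eq_mul_add_iff (nil_notMem_returnCode δ q)).1 (pathLang_return_eq δ q t)

/-- **One-state-removal criterion.** Let `δ` be the transition function of a finite
deterministic automaton over a finite alphabet, `q` a state and `rk` a rank function such
that every transition from a state `p ≠ q` leads to `q`, is a self-loop, or strictly increases
the rank. Then every path language has generalized star height at most one. -/
theorem hasGSH_pathLang_of_removal [Fintype α] [Fintype σ] (δ : σ → α → σ) (q : σ)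
    (rk : σ → ℕ) (h : ∀ p a, p ≠ q → δ p a = q ∨ δ p a = p ∨ rk p < rk (δ p a)) :
    ∀ s t, HasGSH (pathLang δ s t) 1 := by
  classical
  obtain ⟨R, hR⟩ : ∃ R, ∀ p, rk p < R :=
    ⟨Finset.univ.sup rk + 1, fun p => Nat.lt_succ_of_le (Finset.le_sup (Finset.mem_univ p))⟩
  -- the sink automaton is partially ordered
  have hpo : ∀ p a, sinkStep δ q p a = p ∨
      (if p = q then R else rk p) < (if sinkStep δ q p a = q then R else rk (sinkStep δ q p a)) := by
    intro p a
    by_cases hp : p = q
    · left
      simp [sinkStep, hp]
    · rw [sinkStep_of_ne δ q hp]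
      rcases h p a hp with h1 | h1 | h1
      · right
        simp [hp, h1, hR p]
      · left
        exact h1
      · right
        by_cases h2 : δ p a = q
        · simp [hp, h2, hR p]
        · simp [hp, h2, h1]
  have hK : ∀ (n : ℕ) p t, HasGSH (pathLang (sinkStep δ q) p t) n :=
    fun n => hasGSH_pathLang_of_po (sinkStep δ q) (fun p => if p = q then R else rk p) hpo n
  have hY : HasGSH (returnCode δ q) 0 := by
    refine HasGSH.add ?_ ?_
    · exact HasGSH.iSup_prop _ _ fun a _ => HasGSH.char a
    · refine HasGSH.iSup _ fun a => HasGSH.iSup _ fun p' => HasGSH.iSup_prop _ _ fun b _ => ?_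
      exact ((HasGSH.char a).mul (hK 0 _ _)).mul (HasGSH.char b)
  have hD : ∀ t, HasGSH (departLang δ q t) 1 := by
    intro t
    refine HasGSH.add ?_ ?_
    · by_cases htq : t = q
      · simp only [htq, iSup_pos]
        exact HasGSH.one
      · simp only [htq, iSup_neg, not_false_eq_true]
        exact HasGSH.zero
    · exact HasGSH.iSup_prop _ _ fun a _ => (HasGSH.char a).mul (hK 1 _ _)
  have hq : ∀ t, HasGSH (pathLang δ q t) 1 := by
    intro t
    rw [pathLang_eq_kstar]
    exact hY.kstar.mul (hD t)
  intro s t
  by_cases hs : s = q
  · rw [hs]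
    exact hq t
  · rw [pathLang_first_hit δ q t s hs]
    refine HasGSH.add ?_ ?_
    · by_cases htq : t = q
      · simp only [htq, ne_eq, not_true_eq_false, iSup_neg, not_false_eq_true]
        exact HasGSH.zero
      · simp only [ne_eq, htq, not_false_eq_true, iSup_pos]
        exact hK 1 _ _
    · refine HasGSH.iSup _ fun p' => HasGSH.iSup_prop _ _ fun b _ => ?_
      exact ((hK 1 _ _).mul (HasGSH.char b)).mul (hq t)

end main

end Vale.Agent.H88
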