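import Mathlib

/-!
# The Turing degrees of sets of natural numbers (definitions for P327)

Sets of natural numbers are given by their characteristic functions `ℕ → Bool`.

* `SetTuringLE A B`: `A ≤ᵀ B`, Turing reducibility of the characteristic functions.
* `turingSetoid`: Turing equivalence of sets, as an equivalence relation.
* `SetDegree`: the Turing degrees of sets, the quotient by Turing equivalence.
* `SetDegree.of A`: the degree of the set `A`.
* `SetDegree.le a b`: the order of the degrees.
-/

namespace Vale.Agent.H88

/-- Turing reducibility of sets of natural numbers, `A ≤ᵀ B`: the characteristic function of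
`A` is computable relative to the characteristic function of `B`. -/
def SetTuringLE (A B : ℕ → Bool) : Prop :=
  TuringReducible (fun n => Part.some (A n).toNat) (fun n => Part.some (B n).toNat)

/-- Turing equivalence of sets of natural numbers (`A ≤ᵀ B` and `B ≤ᵀ A`), as an equivalence
relation on `ℕ → Bool`. -/
def turingSetoid : Setoid (ℕ → Bool) where
  r A B := SetTuringLE A B ∧ SetTuringLE B A
  iseqv :=
    ⟨fun _ => ⟨TuringReducible.refl _, TuringReducible.refl _⟩,
      fun h => ⟨h.2, h.1⟩,
      fun h₁ h₂ => ⟨TuringReducible.trans h₁.1 h₂.1, TuringReducible.trans h₂.2 h₁.2⟩⟩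

/-- The Turing degrees of sets of natural numbers: the classes of Turing equivalence. -/
def SetDegree : Type := Quotient turingSetoid

/-- The Turing degree of a set. -/
def SetDegree.of (A : ℕ → Bool) : SetDegree := Quotient.mk turingSetoid A

/-- The order of the Turing degrees: `a ≤ b` if `A ≤ᵀ B` for some set `A` of degree `a` and
some set `B` of degree `b` (equivalently, for all such sets: see `SetDegree.le_of_iff`). -/
def SetDegree.le (a b : SetDegree) : Prop :=
  ∃ A B : ℕ → Bool, SetDegree.of A = a ∧ SetDegree.of B = b ∧ SetTuringLE A B

/-- Two sets have the same degree if and only if they are Turing equivalent. -/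
theorem SetDegree.of_eq_of_iff (A B : ℕ → Bool) :
    SetDegree.of A = SetDegree.of B ↔ SetTuringLE A B ∧ SetTuringLE B A :=
  ⟨fun h => Quotient.exact h, fun h => Quotient.sound h⟩

/-- Every degree is the degree of a set. -/
theorem SetDegree.exists_of (a : SetDegree) : ∃ A : ℕ → Bool, SetDegree.of A = a :=
  Quotient.exists_rep a

/-- The order of the degrees does not depend on the representatives. -/
theorem SetDegree.le_of_iff (A B : ℕ → Bool) :
    SetDegree.le (SetDegree.of A) (SetDegree.of B) ↔ SetTuringLE A B := by
  constructor
  · rintro ⟨A', B', hA, hB, h⟩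
    have hA' := (SetDegree.of_eq_of_iff A' A).1 hA
    have hB' := (SetDegree.of_eq_of_iff B' B).1 hB
    exact TuringReducible.trans (TuringReducible.trans hA'.2 h) hB'.1
  · intro h
    exact ⟨A, B, rfl, rfl, h⟩

end Vale.Agent.H88
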